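import Vale.Agent.Lib.P274.Transport

/-!
# Products of planar domains with a cocompact group of biholomorphisms
-/

open Complex Metric Set

namespace Vale.Agent.Lib.P274

theorem exists_pos_le_of_finite {ι : Type*} [Finite ι] (f : ι → ℝ) (hf : ∀ i, 0 < f i) :
    ∃ ε > 0, ∀ i, ε ≤ f i := by
  rcases isEmpty_or_nonempty ι with h | h
  · exact ⟨1, one_pos, fun i => (h.false i).elim⟩
  · obtain ⟨i₀, hi₀⟩ := Finite.exists_min f
    exact ⟨f i₀, hf i₀, hi₀⟩

theorem exists_ge_of_finite {ι : Type*} [Finite ι] (f : ι → ℝ) :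
    ∃ M > 0, ∀ i, f i ≤ M := by
  rcases isEmpty_or_nonempty ι with h | h
  · exact ⟨1, one_pos, fun i => (h.false i).elim⟩
  · obtain ⟨i₀, hi₀⟩ := Finite.exists_max f
    exact ⟨max (f i₀) 1, lt_of_lt_of_le one_pos (le_max_right _ _),
      fun i => (hi₀ i).trans (le_max_left _ _)⟩

variable {n : ℕ}

/-- The product of planar sets, inside `ℂ ^ n` with the Euclidean norm. -/
def prodSet (V : Fin n → Set ℂ) : Set (EuclideanSpace ℂ (Fin n)) := {z | ∀ i, z i ∈ V i}

theorem isOpen_prodSet {V : Fin n → Set ℂ} (hVo : ∀ i, IsOpen (V i)) : IsOpen (prodSet V) := by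
  have : prodSet V = ⋂ i, (fun z : EuclideanSpace ℂ (Fin n) => z i) ⁻¹' (V i) := by
    ext z; simp [prodSet]
  rw [this]
  exact isOpen_iInter_of_finite (fun i => (hVo i).preimage (by fun_prop))

theorem isConnected_prodSet {V : Fin n → Set ℂ} (hVc : ∀ i, IsConnected (V i)) :
    IsConnected (prodSet V) := by
  have h1 : IsConnected (univ.pi V) := isConnected_univ_pi.mpr hVc
  have h2 : prodSet V = (EuclideanSpace.equiv (Fin n) ℂ).toHomeomorph ⁻¹' (univ.pi V) := by
    ext z; simp [prodSet]
  rw [h2]
  exact ((EuclideanSpace.equiv (Fin n) ℂ).toHomeomorph.isConnected_preimage).mpr h1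

/-- A product of bounded planar domains with a cocompact group of biholomorphisms, each factor
being tame near one boundary point, is simply connected. -/
theorem prodSet_simply_connected {V : Fin n → Set ℂ} (hVo : ∀ i, IsOpen (V i))
    (hVc : ∀ i, IsConnected (V i)) (hVb : ∀ i, Bornology.IsBounded (V i))
    {G : Type*} [Group G] [MulAction G (prodSet V)]
    (hol : ∀ g : G, ∃ f : EuclideanSpace ℂ (Fin n) → EuclideanSpace ℂ (Fin n),
      DifferentiableOn ℂ f (prodSet V) ∧
        ∀ z : prodSet V, f z = ((g • z : prodSet V) : EuclideanSpace ℂ (Fin n)))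
    (hcpt : CompactSpace (MulAction.orbitRel.Quotient G (prodSet V)))
    (htame : ∀ i, ∃ b ∈ frontier (V i), ∃ ε > 0, ∀ (x : ℂ) (γ : Path x x),
      (∀ t, γ t ∈ V i ∩ ball b ε) → ∃ F : γ.Homotopy (Path.refl x), ∀ t, F t ∈ V i) :
    IsSimplyConnected (prodSet V) := by
  have hUo := isOpen_prodSet hVo
  have hUc := isConnected_prodSet hVc
  choose b hb ε hε htame using htame
  have hbc : ∀ i, b i ∈ closure (V i) := fun i => frontier_subset_closure (hb i)
  have hbV : ∀ i, b i ∉ V i := by
    intro i hbV
    have := hb i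
    rw [frontier, (hVo i).interior_eq] at this
    exact this.2 hbV
  -- uniform radius and uniform bound
  obtain ⟨ε₀, hε₀, hε₀le⟩ := exists_pos_le_of_finite ε hε
  have hMi : ∀ i, ∃ M : ℝ, ∀ z ∈ V i, dist z (b i) < M := by
    intro i
    obtain ⟨R, hR⟩ := (hVb i).subset_ball (b i)
    exact ⟨R, fun z hz => by simpa [mem_ball] using hR hz⟩
  choose M' hM' using hMi
  obtain ⟨M, hMpos, hMle⟩ := exists_ge_of_finite M'
  have hM : ∀ i, ∀ z ∈ V i, dist z (b i) < M := fun i z hz => (hM' i z hz).trans_le (hMle i)
  set ψ : Fin n → EuclideanSpace ℂ (Fin n) → ℂ := fun i z => (z i - b i) / (M : ℂ) with hψdef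
  have hψd : ∀ i, DifferentiableOn ℂ (ψ i) (prodSet V) := by
    intro i
    apply Differentiable.differentiableOn
    have h1 : Differentiable ℂ (fun z : EuclideanSpace ℂ (Fin n) => z i - b i) := by fun_prop
    have h2 : ψ i = fun z => (z i - b i) * (M : ℂ)⁻¹ := by
      funext z; simp only [hψdef, div_eq_mul_inv]
    rw [h2]
    exact h1.mul_const _
  have hnorm : ∀ i z, ‖ψ i z‖ = dist (z i) (b i) / M := by
    intro i z
    simp only [hψdef]
    rw [norm_div, Complex.norm_real, Real.norm_of_nonneg hMpos.le, ← dist_eq_norm]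
  have hψ0 : ∀ i, ∀ z ∈ prodSet V, ψ i z ≠ 0 := by
    intro i z hz h0
    have h1 := hnorm i z
    rw [h0, norm_zero] at h1
    have h2 : dist (z i) (b i) = 0 := by
      have := h1.symm
      rcases div_eq_zero_iff.mp this with h | h
      · exact h
      · exact absurd h hMpos.ne'
    rw [dist_eq_zero] at h2
    exact hbV i (h2 ▸ hz i)
  have hψ1 : ∀ i, ∀ z ∈ prodSet V, ‖ψ i z‖ < 1 := by
    intro i z hz
    rw [hnorm, div_lt_one hMpos]
    exact hM i _ (hz i)
  have hinf : ∀ δ > 0, ∃ z ∈ prodSet V, ∀ i, ‖ψ i z‖ < δ := by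
    intro δ hδ
    have hz : ∀ i, ∃ w ∈ V i, dist (b i) w < δ * M :=
      fun i => Metric.mem_closure_iff.mp (hbc i) (δ * M) (by positivity)
    choose w hwV hwb using hz
    refine ⟨WithLp.toLp 2 w, fun i => hwV i, fun i => ?_⟩
    rw [hnorm, div_lt_iff₀ hMpos]
    have := hwb i
    rw [dist_comm] at this
    exact this
  have hUne : (prodSet V).Nonempty := by
    obtain ⟨z, hz, -⟩ := hinf 1 one_pos
    exact ⟨z, hz⟩
  have hcont := continuous_smul_of_hol hol
  obtain ⟨K, hK, hKU, hKcov⟩ := exists_compact_fundamentalE hUo hcont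
  set 𝒜 : Set (EuclideanSpace ℂ (Fin n) → EuclideanSpace ℂ (Fin n)) :=
    {f | DifferentiableOn ℂ f (prodSet V) ∧
      ∃ g : G, (∀ z : prodSet V, f z = ((g • z : prodSet V) : EuclideanSpace ℂ (Fin n)))}
    with h𝒜def
  have h𝒜 : ∀ f ∈ 𝒜, DifferentiableOn ℂ f (prodSet V) ∧ MapsTo f (prodSet V) (prodSet V) := by
    rintro f ⟨hf, g, hg⟩
    refine ⟨hf, fun z hz => ?_⟩
    have := hg ⟨z, hz⟩
    simp only at this
    rw [this]
    exact (g • (⟨z, hz⟩ : prodSet V)).2
  have hcov : ∀ z ∈ prodSet V, ∃ f ∈ 𝒜, ∃ k ∈ K, f k = z := by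
    intro z hz
    obtain ⟨g, k, hk, hgk⟩ := hKcov ⟨z, hz⟩
    obtain ⟨f, hf, hfg⟩ := hol g
    refine ⟨f, ⟨hf, g, hfg⟩, k, hk, ?_⟩
    rw [hfg k, hgk]
  set P : Set (EuclideanSpace ℂ (Fin n)) := {z | ∀ i, z i ∈ ball (b i) ε₀} with hP
  apply simply_connected_of_transport hUo hUc hol P
  · intro Q hQ hQU
    have hη : 0 < ε₀ / M := by positivity
    obtain ⟨f, ⟨hf, g, hg⟩, hfQ⟩ := push_general_family hUo hUc.isPreconnected hUne ψ hψd hψ0 hψ1
      hinf 𝒜 h𝒜 hK hKU hcov hQ hQU hη
    refine ⟨g, f, hf, hg, fun q hq i => ?_⟩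
    have := hfQ q hq i
    rw [hnorm, div_lt_div_iff_of_pos_right hMpos] at this
    rw [mem_ball]
    exact this
  · intro x γ hγ
    have hγi : ∀ i, ∀ t, (γ.map (f := fun z : EuclideanSpace ℂ (Fin n) => z i) (by fun_prop)) t
        ∈ V i ∩ ball (b i) (ε i) := by
      intro i t
      refine ⟨(hγ t).1 i, ?_⟩
      exact ball_subset_ball (hε₀le i) ((hγ t).2 i)
    have hF : ∀ i, ∃ F : (γ.map (f := fun z : EuclideanSpace ℂ (Fin n) => z i)
        (by fun_prop)).Homotopy (Path.refl (x i)), ∀ t, F t ∈ V i :=
      fun i => htame i (x i) _ (hγi i)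
    choose F hFV using hF
    let H : γ.Homotopy (Path.refl x) :=
      { toFun := fun st => WithLp.toLp 2 (fun i => F i st)
        continuous_toFun := by
          have : ∀ i, Continuous (fun st => F i st) := fun i => (F i).continuous
          fun_prop
        map_zero_left := by
          intro t
          ext i
          show F i (0, t) = γ t i
          rw [(F i).apply_zero]
          rfl
        map_one_left := by
          intro t
          ext i
          show F i (1, t) = x i
          rw [(F i).apply_one]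
          rfl
        prop' := by
          intro s t ht
          ext i
          show F i (s, t) = γ t i
          rcases ht with rfl | rfl
          · rw [(F i).source]
            simp
          · rw [(F i).target]
            simp }
    exact ⟨H, fun st i => hFV i st⟩

/-- Each factor of a simply connected product is simply connected. -/
theorem factor_simply_connected {V : Fin n → Set ℂ} (hVo : ∀ i, IsOpen (V i))
    (hVc : ∀ i, IsConnected (V i)) (hsc : IsSimplyConnected (prodSet V)) (i : Fin n) :
    IsSimplyConnected (V i) := by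
  rw [isSimplyConnected_iff_exists_homotopy_refl_forall_mem]
  refine ⟨(hVo i).isConnected_iff_isPathConnected.mp (hVc i), ?_⟩
  intro x α hα
  obtain ⟨c, hc⟩ := hsc.nonempty
  rw [isSimplyConnected_iff_exists_homotopy_refl_forall_mem] at hsc
  let Γ : Path (WithLp.toLp 2 (Function.update c.ofLp i x) : EuclideanSpace ℂ (Fin n))
      (WithLp.toLp 2 (Function.update c.ofLp i x)) :=
    { toFun := fun t => WithLp.toLp 2 (Function.update c.ofLp i (α t))
      continuous_toFun := by
        have h1 : Continuous (fun t => Function.update c.ofLp i (α t)) :=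
          continuous_const.update i α.continuous
        fun_prop
      source' := by simp
      target' := by simp }
  have hΓ : ∀ t, Γ t ∈ prodSet V := by
    intro t j
    show Function.update c.ofLp i (α t) j ∈ V j
    by_cases hj : j = i
    · subst hj
      simp only [Function.update_self]
      exact hα t
    · rw [Function.update_of_ne hj]
      exact hc j
  obtain ⟨H, hH⟩ := hsc.2 _ Γ hΓ
  let H' : α.Homotopy (Path.refl x) :=
    { toFun := fun st => (H st) i
      continuous_toFun := by
        have : Continuous (fun st => H st) := H.continuous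
        fun_prop
      map_zero_left := by
        intro t
        show (H (0, t)) i = α t
        rw [H.apply_zero]
        show Function.update c.ofLp i (α t) i = α t
        simp
      map_one_left := by
        intro t
        show (H (1, t)) i = x
        rw [H.apply_one]
        show Function.update c.ofLp i x i = x
        simp
      prop' := by
        intro s t ht
        show (H (s, t)) i = α t
        rcases ht with rfl | rfl
        · rw [H.source]
          show Function.update c.ofLp i x i = α 0
          simp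
        · rw [H.target]
          show Function.update c.ofLp i x i = α 1
          simp }
  exact ⟨H', fun st => hH st i⟩

end Vale.Agent.Lib.P274
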