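import Vale.Agent.Lib.P274.Symmetric
import Vale.Agent.Lib.P274.Product

/-!
# Planar domains and products of planar domains with a cocompact group of biholomorphisms
are biholomorphic to the disc, respectively the polydisc
-/

open Complex Metric Set Filter Topology

namespace Vale.Agent.Lib.P274

/-- A bounded planar domain with a cocompact group of biholomorphisms and one tame boundary point
is biholomorphic to the unit disc, and is a symmetric domain. -/
theorem planar_disc {U : Set ℂ} (hUo : IsOpen U) (hUc : IsConnected U)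
    (hUb : Bornology.IsBounded U)
    {G : Type*} [Group G] [MulAction G U]
    (hol : ∀ g : G, ∃ f : ℂ → ℂ, DifferentiableOn ℂ f U ∧ ∀ z : U, f z = ((g • z : U) : ℂ))
    (hcpt : CompactSpace (MulAction.orbitRel.Quotient G U))
    (htame : ∃ b ∈ frontier U, ∃ ε > 0, ∀ (x : ℂ) (p : Path x x),
      (∀ t, p t ∈ U ∩ ball b ε) → ∃ F : p.Homotopy (Path.refl x), ∀ t, F t ∈ U) :
    (∃ f g : ℂ → ℂ, DifferentiableOn ℂ f U ∧ DifferentiableOn ℂ g (ball 0 1) ∧
      MapsTo f U (ball 0 1) ∧ MapsTo g (ball 0 1) U ∧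
      (∀ z ∈ U, g (f z) = z) ∧ ∀ w ∈ ball (0 : ℂ) 1, f (g w) = w) ∧
    ∀ z ∈ U, ∃ s : ℂ → ℂ, DifferentiableOn ℂ s U ∧ MapsTo s U U ∧ (∀ w ∈ U, s (s w) = w) ∧
      ∀ w ∈ U, (s w = w ↔ w = z) := by
  have hsc := planar_simply_connected hUo hUc hUb hol hcpt htame
  obtain ⟨f, g, hf, hg, hfm, hgm, hgf, hfg⟩ := riemann_mapping_bounded hUo hsc hUb
  exact ⟨⟨f, g, hf, hg, hfm, hgm, hgf, hfg⟩,
    fun z hz => symmetric_of_biholo_disc hf hg hfm hgm hgf hfg hz⟩

variable {n : ℕ}

theorem differentiableOn_coord {S : Set (EuclideanSpace ℂ (Fin n))} {T : Fin n → Set ℂ}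
    (h : Fin n → ℂ → ℂ) (hh : ∀ i, DifferentiableOn ℂ (h i) (T i))
    (hS : ∀ z ∈ S, ∀ i, z i ∈ T i) :
    DifferentiableOn ℂ
      (fun z : EuclideanSpace ℂ (Fin n) =>
        (WithLp.toLp 2 (fun i => h i (z i)) : EuclideanSpace ℂ (Fin n))) S := by
  rw [differentiableOn_euclidean]
  intro i
  show DifferentiableOn ℂ (fun z : EuclideanSpace ℂ (Fin n) => h i (z i)) S
  have hproj : DifferentiableOn ℂ (fun z : EuclideanSpace ℂ (Fin n) => z i) S := by
    apply Differentiable.differentiableOn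
    fun_prop
  exact (hh i).comp hproj (fun z hz => hS z hz i)

/-- A product of bounded planar domains with a cocompact group of biholomorphisms, each factor
being tame near one boundary point, is biholomorphic to the unit polydisc and is a symmetric
domain. -/
theorem prodSet_polydisc {V : Fin n → Set ℂ} (hVo : ∀ i, IsOpen (V i))
    (hVc : ∀ i, IsConnected (V i)) (hVb : ∀ i, Bornology.IsBounded (V i))
    {G : Type*} [Group G] [MulAction G (prodSet V)]
    (hol : ∀ g : G, ∃ f : EuclideanSpace ℂ (Fin n) → EuclideanSpace ℂ (Fin n),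
      DifferentiableOn ℂ f (prodSet V) ∧
        ∀ z : prodSet V, f z = ((g • z : prodSet V) : EuclideanSpace ℂ (Fin n)))
    (hcpt : CompactSpace (MulAction.orbitRel.Quotient G (prodSet V)))
    (htame : ∀ i, ∃ b ∈ frontier (V i), ∃ ε > 0, ∀ (x : ℂ) (γ : Path x x),
      (∀ t, γ t ∈ V i ∩ ball b ε) → ∃ F : γ.Homotopy (Path.refl x), ∀ t, F t ∈ V i) :
    (∃ Φ Ψ : EuclideanSpace ℂ (Fin n) → EuclideanSpace ℂ (Fin n),
      DifferentiableOn ℂ Φ (prodSet V) ∧
      DifferentiableOn ℂ Ψ {w : EuclideanSpace ℂ (Fin n) | ∀ i, ‖w i‖ < 1} ∧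
      MapsTo Φ (prodSet V) {w : EuclideanSpace ℂ (Fin n) | ∀ i, ‖w i‖ < 1} ∧
      MapsTo Ψ {w : EuclideanSpace ℂ (Fin n) | ∀ i, ‖w i‖ < 1} (prodSet V) ∧
      (∀ z ∈ prodSet V, Ψ (Φ z) = z) ∧
      ∀ w ∈ {w : EuclideanSpace ℂ (Fin n) | ∀ i, ‖w i‖ < 1}, Φ (Ψ w) = w) ∧
    ∀ z ∈ prodSet V, ∃ s : EuclideanSpace ℂ (Fin n) → EuclideanSpace ℂ (Fin n),
      DifferentiableOn ℂ s (prodSet V) ∧ MapsTo s (prodSet V) (prodSet V) ∧
      (∀ w ∈ prodSet V, s (s w) = w) ∧ ∀ w ∈ prodSet V, (s w = w ↔ w = z) := by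
  have hsc := prodSet_simply_connected hVo hVc hVb hol hcpt htame
  have hfac : ∀ i, ∃ f g : ℂ → ℂ, DifferentiableOn ℂ f (V i) ∧ DifferentiableOn ℂ g (ball 0 1) ∧
      MapsTo f (V i) (ball 0 1) ∧ MapsTo g (ball 0 1) (V i) ∧
      (∀ z ∈ V i, g (f z) = z) ∧ ∀ w ∈ ball (0 : ℂ) 1, f (g w) = w :=
    fun i => riemann_mapping_bounded (hVo i) (factor_simply_connected hVo hVc hsc i) (hVb i)
  choose f g hf hg hfm hgm hgf hfg using hfac
  have hball : ∀ w : EuclideanSpace ℂ (Fin n), w ∈ {w : EuclideanSpace ℂ (Fin n) | ∀ i, ‖w i‖ < 1} →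
      ∀ i, w i ∈ ball (0 : ℂ) 1 := by
    intro w hw i
    rw [mem_ball, dist_zero_right]
    exact hw i
  constructor
  · refine ⟨fun z => WithLp.toLp 2 (fun i => f i (z i)), fun w => WithLp.toLp 2 (fun i => g i (w i)),
      ?_, ?_, ?_, ?_, ?_, ?_⟩
    · exact differentiableOn_coord f hf (fun z hz i => hz i)
    · exact differentiableOn_coord g hg hball
    · intro z hz i
      have := hfm i (hz i)
      rw [mem_ball, dist_zero_right] at this
      exact this
    · intro w hw i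
      exact hgm i (hball w hw i)
    · intro z hz
      ext i
      exact hgf i (z i) (hz i)
    · intro w hw
      ext i
      exact hfg i (w i) (hball w hw i)
  · intro z hz
    have hs : ∀ i, ∃ s : ℂ → ℂ, DifferentiableOn ℂ s (V i) ∧ MapsTo s (V i) (V i) ∧
        (∀ w ∈ V i, s (s w) = w) ∧ ∀ w ∈ V i, (s w = w ↔ w = z i) :=
      fun i => symmetric_of_biholo_disc (hf i) (hg i) (hfm i) (hgm i) (hgf i) (hfg i) (hz i)
    choose s hsd hsm hss hsfix using hs
    refine ⟨fun w => WithLp.toLp 2 (fun i => s i (w i)), ?_, ?_, ?_, ?_⟩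
    · exact differentiableOn_coord s hsd (fun w hw i => hw i)
    · intro w hw i
      exact hsm i (hw i)
    · intro w hw
      ext i
      exact hss i (w i) (hw i)
    · intro w hw
      constructor
      · intro h
        ext i
        have hi : s i (w i) = w i := by
          have := congrArg (fun v : EuclideanSpace ℂ (Fin n) => v i) h
          exact this
        exact (hsfix i (w i) (hw i)).mp hi
      · rintro rfl
        ext i
        exact (hsfix i (w i) (hw i)).mpr rfl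

end Vale.Agent.Lib.P274
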