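import Vale.Agent.Lib.P274.General

/-!
# Farthest boundary points and simple connectivity

A point `b` of the closure of a bounded domain `U` of a complex inner product space at maximal
distance from a point `p` is exposed by the complex-affine function
`z ↦ ‖b - p‖ ^ 2 - ⟪b - p, z - p⟫`.  Hence a cocompact family of automorphisms pushes every
compact subset of `U` into any ball around `b`, and local tameness at `b` forces `U` to be
simply connected.
-/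

open Complex Metric Set

namespace Vale.Agent.Lib.P274

variable {E : Type*} [NormedAddCommGroup E] [InnerProductSpace ℂ E]

/-- The key inequality at a farthest point. -/
theorem dist_sq_le_of_farthest {p b z : E} (hz : ‖z - p‖ ≤ ‖b - p‖) :
    ‖z - b‖ ^ 2 ≤ 2 * ‖((‖b - p‖ ^ 2 : ℝ) : ℂ) - inner ℂ (b - p) (z - p)‖ := by
  have h1 : z - b = (z - p) - (b - p) := by abel
  have h2 : ‖z - b‖ ^ 2 = ‖z - p‖ ^ 2 - 2 * (inner ℂ (z - p) (b - p)).re + ‖b - p‖ ^ 2 := by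
    rw [h1, @norm_sub_sq ℂ]
    rfl
  have h3 : (inner ℂ (z - p) (b - p)).re = (inner ℂ (b - p) (z - p)).re := by
    rw [← inner_conj_symm, Complex.conj_re]
  have h4 : (((‖b - p‖ ^ 2 : ℝ) : ℂ) - inner ℂ (b - p) (z - p)).re
      ≤ ‖((‖b - p‖ ^ 2 : ℝ) : ℂ) - inner ℂ (b - p) (z - p)‖ := Complex.re_le_norm _
  have h5 : (((‖b - p‖ ^ 2 : ℝ) : ℂ) - inner ℂ (b - p) (z - p)).re
      = ‖b - p‖ ^ 2 - (inner ℂ (b - p) (z - p)).re := by
    rw [Complex.sub_re, Complex.ofReal_re]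
  have h6 : ‖z - p‖ ^ 2 ≤ ‖b - p‖ ^ 2 := pow_le_pow_left₀ (norm_nonneg _) hz 2
  rw [h2, h3]
  linarith

/-- A cocompact family of holomorphic self-maps of a bounded domain pushes compact sets into any
ball around a farthest boundary point. -/
theorem push_farthest {U : Set E} (hUo : IsOpen U) (hUc : IsPreconnected U)
    {p b : E} (hbU : b ∉ U) (hbc : b ∈ closure U) (hfar : ∀ z ∈ U, dist z p ≤ dist b p)
    (𝒜 : Set (E → E)) (h𝒜 : ∀ f ∈ 𝒜, DifferentiableOn ℂ f U ∧ MapsTo f U U)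
    {K : Set E} (hK : IsCompact K) (hKU : K ⊆ U)
    (hcov : ∀ z ∈ U, ∃ f ∈ 𝒜, ∃ k ∈ K, f k = z)
    {Q : Set E} (hQ : IsCompact Q) (hQU : Q ⊆ U) {ε : ℝ} (hε : 0 < ε) :
    ∃ f ∈ 𝒜, ∀ q ∈ Q, dist (f q) b < ε := by
  set R : ℝ := ‖b - p‖ with hR
  set M : ℝ := 2 * R ^ 2 + 1 with hM
  have hMpos : 0 < M := by positivity
  set φ : E → ℂ := fun z => ((R ^ 2 : ℝ) : ℂ) - inner ℂ (b - p) (z - p) with hφ
  set ψ : E → ℂ := fun z => φ z / (M : ℂ) with hψdef
  have hfar' : ∀ z ∈ U, ‖z - p‖ ≤ ‖b - p‖ := by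
    intro z hz
    have := hfar z hz
    rwa [dist_eq_norm, dist_eq_norm] at this
  have hφd : Differentiable ℂ φ := by
    intro z
    apply DifferentiableAt.sub (differentiableAt_const _)
    exact ((innerSL ℂ (b - p)).differentiableAt).comp z (differentiableAt_id.sub_const p)
  have hψd : Differentiable ℂ ψ := by
    intro z
    have : ψ = fun z => φ z * (M : ℂ)⁻¹ := by
      funext z; simp only [hψdef, div_eq_mul_inv]
    rw [this]
    exact (hφd z).mul_const _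
  have hkey : ∀ z ∈ U, ‖z - b‖ ^ 2 ≤ 2 * M * ‖ψ z‖ := by
    intro z hz
    have h1 := dist_sq_le_of_farthest (hfar' z hz)
    have h2 : ‖ψ z‖ = ‖φ z‖ / M := by
      simp only [hψdef]
      rw [norm_div, Complex.norm_real, Real.norm_of_nonneg hMpos.le]
    rw [h2]
    have h3 : 2 * M * (‖φ z‖ / M) = 2 * ‖φ z‖ := by field_simp
    rw [h3]
    exact h1
  have hψ0 : ∀ z ∈ U, ψ z ≠ 0 := by
    intro z hz h0
    have h1 := hkey z hz
    rw [h0, norm_zero, mul_zero] at h1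
    have h2 : ‖z - b‖ = 0 := by
      have := sq_nonneg ‖z - b‖
      have h3 : ‖z - b‖ ^ 2 = 0 := le_antisymm h1 this
      exact pow_eq_zero_iff (two_ne_zero) |>.mp h3
    rw [norm_eq_zero, sub_eq_zero] at h2
    rw [h2] at hz
    exact hbU hz
  have hψ1 : ∀ z ∈ U, ‖ψ z‖ < 1 := by
    intro z hz
    have h2 : ‖ψ z‖ = ‖φ z‖ / M := by
      simp only [hψdef]
      rw [norm_div, Complex.norm_real, Real.norm_of_nonneg hMpos.le]
    rw [h2, div_lt_one hMpos]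
    have h3 : ‖φ z‖ ≤ ‖((R ^ 2 : ℝ) : ℂ)‖ + ‖inner ℂ (b - p) (z - p)‖ := norm_sub_le _ _
    have h4 : ‖inner ℂ (b - p) (z - p)‖ ≤ ‖b - p‖ * ‖z - p‖ := norm_inner_le_norm _ _
    have h5 : ‖b - p‖ * ‖z - p‖ ≤ R * R := by
      rw [hR]
      exact mul_le_mul_of_nonneg_left (hfar' z hz) (norm_nonneg _)
    have h6 : ‖((R ^ 2 : ℝ) : ℂ)‖ = R ^ 2 := by
      rw [Complex.norm_real, Real.norm_of_nonneg (sq_nonneg R)]
    rw [hM]
    nlinarith
  have hψb : ψ b = 0 := by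
    simp only [hψdef, hφ]
    rw [inner_self_eq_norm_sq_to_K]
    simp [hR]
  have hinf : ∀ δ > 0, ∃ z ∈ U, ‖ψ z‖ < δ := by
    intro δ hδ
    have hcont : ContinuousAt ψ b := hψd.continuous.continuousAt
    obtain ⟨ρ, hρ, hρ'⟩ := Metric.continuousAt_iff.mp hcont δ hδ
    obtain ⟨z, hzU, hzb⟩ := Metric.mem_closure_iff.mp hbc ρ hρ
    refine ⟨z, hzU, ?_⟩
    have := hρ' (by rwa [dist_comm] at hzb : dist z b < ρ)
    rwa [hψb, dist_zero_right] at this
  have hη : 0 < ε ^ 2 / (2 * M) := by positivity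
  obtain ⟨f, hf, hfQ⟩ := push_general hUo hUc ψ hψd.differentiableOn hψ0 hψ1 hinf 𝒜 h𝒜 hK hKU
    hcov hQ hQU hη
  refine ⟨f, hf, fun q hq => ?_⟩
  have hfq : f q ∈ U := (h𝒜 f hf).2 (hQU hq)
  have h1 := hkey (f q) hfq
  have h2 := hfQ q hq
  have h3 : 2 * M * ‖ψ (f q)‖ < ε ^ 2 := by
    have : 2 * M * ‖ψ (f q)‖ < 2 * M * (ε ^ 2 / (2 * M)) := by
      apply mul_lt_mul_of_pos_left h2; positivity
    have h4 : 2 * M * (ε ^ 2 / (2 * M)) = ε ^ 2 := by field_simp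
    linarith
  rw [dist_eq_norm]
  have h5 : ‖f q - b‖ ^ 2 < ε ^ 2 := lt_of_le_of_lt h1 h3
  exact lt_of_pow_lt_pow_left₀ 2 hε.le h5

end Vale.Agent.Lib.P274
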