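import Vale.Agent.Lib.P274.Planar

/-!
# Bounded domains in complex inner product spaces with a cocompact family of automorphisms

A Harnack-type comparison for zero-free holomorphic maps into the unit disc, restricted to complex
lines, shows that a cocompact family of holomorphic automorphisms of a bounded domain `U` moves
every compact subset of `U` arbitrarily close to any boundary point of `U` lying at maximal
distance from some fixed point (such a point is exposed by a complex-affine function).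
-/

open Complex Metric Set

namespace Vale.Agent.Lib.P274

variable {E : Type*} [NormedAddCommGroup E] [NormedSpace ℂ E]

/-- Admissible comparison functions: zero-free holomorphic maps of `U` into the unit disc. -/
def AdmE (U : Set E) (h : E → ℂ) : Prop :=
  DifferentiableOn ℂ h U ∧ ∀ z ∈ U, h z ≠ 0 ∧ ‖h z‖ < 1

/-- Two points are `C`-comparable if `-log ‖h‖` at the two points differ by a factor at most `C`
for every admissible `h`. -/
def CompE (U : Set E) (w w' : E) (C : ℝ) : Prop :=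
  ∀ h, AdmE U h →
    -Real.log ‖h w‖ ≤ C * (-Real.log ‖h w'‖) ∧ -Real.log ‖h w'‖ ≤ C * (-Real.log ‖h w‖)

theorem AdmE.pos {U : Set E} {h : E → ℂ} (hh : AdmE U h) {z : E} (hz : z ∈ U) :
    0 < -Real.log ‖h z‖ := by
  have h0 : 0 < ‖h z‖ := norm_pos_iff.mpr (hh.2 z hz).1
  have := Real.log_neg h0 (hh.2 z hz).2
  linarith

theorem compE_local {U : Set E} {w w' : E} {r : ℝ} (hr : 0 < r) (hb : ball w r ⊆ U)
    (hw : dist w' w ≤ r / 2) : CompE U w w' 3 := by
  intro h hh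
  -- restrict to the complex line through `w` and `w'`
  have hmaps : MapsTo (fun ζ : ℂ => w + ζ • (w' - w)) (ball (0 : ℂ) 2) U := by
    intro ζ hζ
    apply hb
    rw [mem_ball, dist_eq_norm] at *
    rw [sub_zero] at hζ
    have h1 : ‖w + ζ • (w' - w) - w‖ = ‖ζ‖ * ‖w' - w‖ := by
      rw [add_sub_cancel_left, norm_smul]
    rw [h1]
    have h2 : ‖ζ‖ * ‖w' - w‖ ≤ ‖ζ‖ * (r / 2) := by gcongr
    have h3 : ‖ζ‖ * (r / 2) < 2 * (r / 2) := by
      apply mul_lt_mul_of_pos_right hζ; positivity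
    linarith
  have hk : DifferentiableOn ℂ (fun ζ : ℂ => h (w + ζ • (w' - w))) (ball (0 : ℂ) 2) := by
    apply DifferentiableOn.comp (t := U) hh.1 _ hmaps
    apply Differentiable.differentiableOn
    fun_prop
  have := harnack_log_norm (h := fun ζ : ℂ => h (w + ζ • (w' - w))) (c := 0) (r := 2)
    (by norm_num) hk (fun ζ hζ => (hh.2 _ (hmaps hζ)).1) (fun ζ hζ => (hh.2 _ (hmaps hζ)).2)
    (w := 1) (by simp)
  simp only [one_smul, zero_smul, add_zero, add_sub_cancel] at this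
  exact ⟨this.2, this.1⟩

theorem CompE.symm {U : Set E} {w w' : E} {C : ℝ} (h : CompE U w w' C) : CompE U w' w C :=
  fun k hk => ⟨(h k hk).2, (h k hk).1⟩

theorem CompE.trans {U : Set E} {w w' w'' : E} {C C' : ℝ} (hC : 0 ≤ C) (hC' : 0 ≤ C')
    (h : CompE U w w' C) (h' : CompE U w' w'' C') : CompE U w w'' (C * C') := by
  intro k hk
  obtain ⟨a1, a2⟩ := h k hk
  obtain ⟨b1, b2⟩ := h' k hk
  constructor
  · calc -Real.log ‖k w‖ ≤ C * (-Real.log ‖k w'‖) := a1
      _ ≤ C * (C' * (-Real.log ‖k w''‖)) := by gcongr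
      _ = C * C' * (-Real.log ‖k w''‖) := by ring
  · calc -Real.log ‖k w''‖ ≤ C' * (-Real.log ‖k w'‖) := b2
      _ ≤ C' * (C * (-Real.log ‖k w‖)) := by gcongr
      _ = C * C' * (-Real.log ‖k w‖) := by ring

theorem compE_all {U : Set E} (hUo : IsOpen U) (hUc : IsPreconnected U) {w0 : E} (hw0 : w0 ∈ U) :
    ∀ w ∈ U, ∃ C : ℝ, 0 ≤ C ∧ CompE U w0 w C := by
  set A : Set E := {w | w ∈ U ∧ ∃ C : ℝ, 0 ≤ C ∧ CompE U w0 w C} with hA
  set B : Set E := {w | w ∈ U ∧ ¬ ∃ C : ℝ, 0 ≤ C ∧ CompE U w0 w C} with hB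
  have hAo : IsOpen A := by
    rw [Metric.isOpen_iff]
    rintro w ⟨hwU, C, hC, hcomp⟩
    obtain ⟨r, hr, hb⟩ := Metric.isOpen_iff.mp hUo w hwU
    refine ⟨r / 2, by positivity, ?_⟩
    intro w' hw'
    rw [mem_ball] at hw'
    refine ⟨hb (by rw [mem_ball]; linarith), 3 * C, by positivity, ?_⟩
    have := hcomp.trans hC (by norm_num : (0:ℝ) ≤ 3) (compE_local hr hb hw'.le)
    rwa [mul_comm] at this
  have hBo : IsOpen B := by
    rw [Metric.isOpen_iff]
    rintro w ⟨hwU, hnot⟩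
    obtain ⟨r, hr, hb⟩ := Metric.isOpen_iff.mp hUo w hwU
    refine ⟨r / 2, by positivity, ?_⟩
    intro w' hw'
    rw [mem_ball] at hw'
    refine ⟨hb (by rw [mem_ball]; linarith), ?_⟩
    rintro ⟨C, hC, hcomp⟩
    apply hnot
    refine ⟨C * 3, by positivity, ?_⟩
    exact hcomp.trans hC (by norm_num : (0:ℝ) ≤ 3) (compE_local hr hb hw'.le).symm
  intro w hw
  by_contra hcon
  have hcover : U ⊆ A ∪ B := by
    intro z hz
    by_cases hz' : ∃ C : ℝ, 0 ≤ C ∧ CompE U w0 z C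
    · exact Or.inl ⟨hz, hz'⟩
    · exact Or.inr ⟨hz, hz'⟩
  have hA' : (U ∩ A).Nonempty := by
    refine ⟨w0, hw0, hw0, 1, zero_le_one, ?_⟩
    intro k hk
    simp
  have hB' : (U ∩ B).Nonempty := ⟨w, hw, hw, hcon⟩
  obtain ⟨z, hz, hzA, hzB⟩ := hUc A B hAo hBo hcover hA' hB'
  exact hzB.2 hzA.2

theorem compE_compact {U : Set E} (hUo : IsOpen U) (hUc : IsPreconnected U) {w0 : E}
    (hw0 : w0 ∈ U) {Q : Set E} (hQ : IsCompact Q) (hQU : Q ⊆ U) :
    ∃ C : ℝ, 0 ≤ C ∧ ∀ w ∈ Q, CompE U w0 w C := by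
  refine hQ.induction_on (p := fun s => ∃ C : ℝ, 0 ≤ C ∧ ∀ w ∈ s, CompE U w0 w C) ?_ ?_ ?_ ?_
  · exact ⟨0, le_refl _, fun w hw => absurd hw (by simp)⟩
  · rintro s t hst ⟨C, hC, h⟩
    exact ⟨C, hC, fun w hw => h w (hst hw)⟩
  · rintro s t ⟨C, hC, h⟩ ⟨C', hC', h'⟩
    refine ⟨max C C', le_max_of_le_left hC, ?_⟩
    rintro w (hw | hw)
    · intro k hk
      obtain ⟨a1, a2⟩ := h w hw k hk
      have p1 := hk.pos hw0
      have p2 : 0 ≤ -Real.log ‖k w‖ := by
        by_contra hneg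
        have hneg' := not_le.mp hneg
        nlinarith
      constructor
      · calc -Real.log ‖k w0‖ ≤ C * (-Real.log ‖k w‖) := a1
          _ ≤ max C C' * (-Real.log ‖k w‖) := by gcongr; exact le_max_left _ _
      · calc -Real.log ‖k w‖ ≤ C * (-Real.log ‖k w0‖) := a2
          _ ≤ max C C' * (-Real.log ‖k w0‖) := by gcongr; exact le_max_left _ _
    · intro k hk
      obtain ⟨a1, a2⟩ := h' w hw k hk
      have p1 := hk.pos hw0
      have p2 : 0 ≤ -Real.log ‖k w‖ := by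
        by_contra hneg
        have hneg' := not_le.mp hneg
        nlinarith
      constructor
      · calc -Real.log ‖k w0‖ ≤ C' * (-Real.log ‖k w‖) := a1
          _ ≤ max C C' * (-Real.log ‖k w‖) := by gcongr; exact le_max_right _ _
      · calc -Real.log ‖k w‖ ≤ C' * (-Real.log ‖k w0‖) := a2
          _ ≤ max C C' * (-Real.log ‖k w0‖) := by gcongr; exact le_max_right _ _
  · intro x hx
    have hxU := hQU hx
    obtain ⟨C, hC, hcomp⟩ := compE_all hUo hUc hw0 x hxU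
    obtain ⟨r, hr, hb⟩ := Metric.isOpen_iff.mp hUo x hxU
    refine ⟨closedBall x (r / 2), ?_, C * 3, by positivity, ?_⟩
    · exact mem_nhdsWithin_of_mem_nhds (closedBall_mem_nhds x (by positivity))
    · intro w hw
      rw [mem_closedBall] at hw
      exact hcomp.trans hC (by norm_num : (0:ℝ) ≤ 3) (compE_local hr hb hw)

/-- Pushing compact sets towards the zero set of a zero-free bounded holomorphic function:
if the family `𝒜` of holomorphic self-maps of `U` moves a compact set `K` onto all of `U`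
and `ψ` is holomorphic and zero-free on `U` with values in the unit disc and `inf ‖ψ‖ = 0`,
then every compact `Q ⊆ U` is moved by some member of `𝒜` into `{‖ψ‖ < η}`. -/
theorem push_general {U : Set E} (hUo : IsOpen U) (hUc : IsPreconnected U)
    (ψ : E → ℂ) (hψ : DifferentiableOn ℂ ψ U) (hψ0 : ∀ z ∈ U, ψ z ≠ 0)
    (hψ1 : ∀ z ∈ U, ‖ψ z‖ < 1) (hinf : ∀ δ > 0, ∃ z ∈ U, ‖ψ z‖ < δ)
    (𝒜 : Set (E → E)) (h𝒜 : ∀ f ∈ 𝒜, DifferentiableOn ℂ f U ∧ MapsTo f U U)
    {K : Set E} (hK : IsCompact K) (hKU : K ⊆ U)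
    (hcov : ∀ z ∈ U, ∃ f ∈ 𝒜, ∃ k ∈ K, f k = z)
    {Q : Set E} (hQ : IsCompact Q) (hQU : Q ⊆ U) {η : ℝ} (hη : 0 < η) :
    ∃ f ∈ 𝒜, ∀ q ∈ Q, ‖ψ (f q)‖ < η := by
  obtain ⟨w0, hw0, -⟩ := hinf 1 one_pos
  have hadm : ∀ f ∈ 𝒜, AdmE U (fun z => ψ (f z)) := by
    intro f hf
    obtain ⟨hfd, hfm⟩ := h𝒜 f hf
    exact ⟨hψ.comp hfd hfm, fun z hz => ⟨hψ0 _ (hfm hz), hψ1 _ (hfm hz)⟩⟩
  obtain ⟨C, hC, hcomp⟩ := compE_compact hUo hUc hw0 (hQ.union hK) (union_subset hQU hKU)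
  set Λ : ℝ := -Real.log η with hΛ
  set D : ℝ := C ^ 2 + 1 with hD
  have hDpos : 0 < D := by positivity
  set δ : ℝ := Real.exp (-(D * |Λ|)) with hδ
  have hδpos : 0 < δ := by positivity
  obtain ⟨z, hzU, hzδ⟩ := hinf δ hδpos
  obtain ⟨f, hf, k, hk, hfk⟩ := hcov z hzU
  refine ⟨f, hf, ?_⟩
  intro q hq
  have hA := hadm f hf
  obtain ⟨a1, a2⟩ := hcomp q (Or.inl hq) _ hA
  obtain ⟨b1, b2⟩ := hcomp k (Or.inr hk) _ hA
  have pq := hA.pos (hQU hq)
  have pk := hA.pos (hKU hk)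
  have p0 := hA.pos hw0
  have hkq : -Real.log ‖ψ (f k)‖ ≤ D * (-Real.log ‖ψ (f q)‖) := by
    calc -Real.log ‖ψ (f k)‖ ≤ C * (-Real.log ‖ψ (f w0)‖) := b2
      _ ≤ C * (C * (-Real.log ‖ψ (f q)‖)) := by gcongr
      _ = C ^ 2 * (-Real.log ‖ψ (f q)‖) := by ring
      _ ≤ D * (-Real.log ‖ψ (f q)‖) := by
        rw [hD]; nlinarith
  have hzpos : 0 < ‖ψ z‖ := norm_pos_iff.mpr (hψ0 z hzU)
  have hLk : D * |Λ| < -Real.log ‖ψ (f k)‖ := by
    rw [hfk]
    have h2 := Real.log_lt_log hzpos hzδ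
    rw [hδ, Real.log_exp] at h2
    linarith
  have hLq : Λ < -Real.log ‖ψ (f q)‖ := by
    have : |Λ| < -Real.log ‖ψ (f q)‖ := by
      by_contra hcon
      have hcon' := not_lt.mp hcon
      nlinarith
    exact lt_of_le_of_lt (le_abs_self _) this
  by_contra hcon
  have hcon' := not_lt.mp hcon
  have h4 := Real.log_le_log hη hcon'
  rw [hΛ] at hLq
  linarith

end Vale.Agent.Lib.P274
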