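import Vale.Agent.Lib.P274.Farthest

/-!
# Cocompact group actions on bounded domains: pushing to a farthest point, simple connectivity
-/

open Complex Metric Set

namespace Vale.Agent.Lib.P274

variable {E : Type*} [NormedAddCommGroup E] [InnerProductSpace ℂ E] [ProperSpace E]

theorem exists_compact_fundamentalE {U : Set E} (hUo : IsOpen U) {G : Type*} [Group G]
    [MulAction G U] (hcont : ∀ g : G, Continuous (fun z : U => g • z))
    [CompactSpace (MulAction.orbitRel.Quotient G U)] :
    ∃ K : Set E, IsCompact K ∧ K ⊆ U ∧ ∀ z : U, ∃ g : G, ∃ k : U, (k : E) ∈ K ∧ g • k = z := by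
  have : ContinuousConstSMul G U := ⟨hcont⟩
  have hr : ∀ z : U, ∃ r : ℝ, 0 < r ∧ closedBall (z : E) r ⊆ U := by
    intro z
    obtain ⟨r, hr, hb⟩ := Metric.isOpen_iff.mp hUo z z.2
    exact ⟨r / 2, by positivity, (closedBall_subset_ball (by linarith)).trans hb⟩
  choose r hrpos hrsub using hr
  let π : U → MulAction.orbitRel.Quotient G U := Quotient.mk (MulAction.orbitRel G U)
  have hπo : IsOpenMap π := isOpenMap_quotient_mk'_mul
  let V : U → Set (MulAction.orbitRel.Quotient G U) :=
    fun z => π '' {w : U | (w : E) ∈ ball (z : E) (r z)}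
  have hVo : ∀ z, IsOpen (V z) := by
    intro z
    apply hπo
    exact isOpen_ball.preimage continuous_subtype_val
  have hVcov : (univ : Set (MulAction.orbitRel.Quotient G U)) ⊆ ⋃ z, V z := by
    intro x _
    obtain ⟨z, rfl⟩ := Quotient.mk_surjective x
    exact mem_iUnion.mpr ⟨z, z, by simp [hrpos z], rfl⟩
  obtain ⟨t, ht⟩ := isCompact_univ.elim_finite_subcover V hVo hVcov
  refine ⟨⋃ z ∈ t, closedBall (z : E) (r z), ?_, ?_, ?_⟩
  · exact t.isCompact_biUnion (fun z _ => isCompact_closedBall _ _)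
  · exact iUnion₂_subset (fun z _ => hrsub z)
  · intro w
    have hw : π w ∈ ⋃ z ∈ t, V z := ht (mem_univ _)
    obtain ⟨z, hz, w', hw', hww'⟩ := mem_iUnion₂.mp hw
    have hrel : MulAction.orbitRel G U w' w := Quotient.exact hww'
    rw [MulAction.orbitRel_apply] at hrel
    obtain ⟨g, hg⟩ := hrel
    refine ⟨g⁻¹, w', ?_, ?_⟩
    · exact mem_iUnion₂.mpr ⟨z, hz, ball_subset_closedBall hw'⟩
    · rw [← hg]
      simp

/-- The action of each group element is continuous. -/
theorem continuous_smul_of_hol {U : Set E} {G : Type*} [Group G] [MulAction G U]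
    (hol : ∀ g : G, ∃ f : E → E, DifferentiableOn ℂ f U ∧ ∀ z : U, f z = ((g • z : U) : E)) :
    ∀ g : G, Continuous (fun z : U => g • z) := by
  intro g
  obtain ⟨f, hf, hfg⟩ := hol g
  have h1 : Continuous (fun z : U => f z) :=
    hf.continuousOn.comp_continuous continuous_subtype_val (fun z => z.2)
  have h2 : (fun z : U => ((g • z : U) : E)) = fun z : U => f z := by
    funext z; exact (hfg z).symm
  exact Continuous.subtype_mk (f := fun z : U => ((g • z : U) : E)) (h2 ▸ h1) _

/-- Pushing lemma for group actions: every compact subset of `U` is moved by some group element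
into any prescribed ball around a farthest boundary point `b`. -/
theorem exists_push {U : Set E} (hUo : IsOpen U) (hUc : IsConnected U)
    {G : Type*} [Group G] [MulAction G U]
    (hol : ∀ g : G, ∃ f : E → E, DifferentiableOn ℂ f U ∧ ∀ z : U, f z = ((g • z : U) : E))
    (hcpt : CompactSpace (MulAction.orbitRel.Quotient G U))
    {p b : E} (hb : b ∈ frontier U) (hfar : ∀ z ∈ U, dist z p ≤ dist b p)
    {Q : Set E} (hQ : IsCompact Q) (hQU : Q ⊆ U) {ε : ℝ} (hε : 0 < ε) :
    ∃ g : G, ∃ f : E → E, DifferentiableOn ℂ f U ∧ (∀ z : U, f z = ((g • z : U) : E)) ∧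
      ∀ q ∈ Q, dist (f q) b < ε := by
  have hbc : b ∈ closure U := frontier_subset_closure hb
  have hbU : b ∉ U := by
    intro hbU
    rw [frontier, hUo.interior_eq] at hb
    exact hb.2 hbU
  have hcont := continuous_smul_of_hol hol
  obtain ⟨K, hK, hKU, hKcov⟩ := exists_compact_fundamentalE hUo hcont
  set 𝒜 : Set (E → E) :=
    {f | DifferentiableOn ℂ f U ∧ ∃ g : G, (∀ z : U, f z = ((g • z : U) : E))} with h𝒜def
  have h𝒜 : ∀ f ∈ 𝒜, DifferentiableOn ℂ f U ∧ MapsTo f U U := by
    rintro f ⟨hf, g, hg⟩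
    refine ⟨hf, fun z hz => ?_⟩
    have := hg ⟨z, hz⟩
    simp only at this
    rw [this]
    exact (g • (⟨z, hz⟩ : U)).2
  have hcov : ∀ z ∈ U, ∃ f ∈ 𝒜, ∃ k ∈ K, f k = z := by
    intro z hz
    obtain ⟨g, k, hk, hgk⟩ := hKcov ⟨z, hz⟩
    obtain ⟨f, hf, hfg⟩ := hol g
    refine ⟨f, ⟨hf, g, hfg⟩, k, hk, ?_⟩
    rw [hfg k, hgk]
  obtain ⟨f, ⟨hf, g, hg⟩, hfQ⟩ :=
    push_farthest hUo hUc.isPreconnected hbU hbc hfar 𝒜 h𝒜 hK hKU hcov hQ hQU hε
  exact ⟨g, f, hf, hg, hfQ⟩

/-- A bounded domain in a finite-dimensional complex inner product space carrying a cocompact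
group action by holomorphic maps, and which is tame near a farthest boundary point (small loops
near that point contract in the domain), is simply connected. -/
theorem simply_connected_of_farthest {U : Set E} (hUo : IsOpen U) (hUc : IsConnected U)
    {G : Type*} [Group G] [MulAction G U]
    (hol : ∀ g : G, ∃ f : E → E, DifferentiableOn ℂ f U ∧ ∀ z : U, f z = ((g • z : U) : E))
    (hcpt : CompactSpace (MulAction.orbitRel.Quotient G U))
    {p b : E} (hb : b ∈ frontier U) (hfar : ∀ z ∈ U, dist z p ≤ dist b p)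
    (htame : ∃ ε > 0, ∀ (x : E) (γ : Path x x),
      (∀ t, γ t ∈ U ∩ ball b ε) → ∃ F : γ.Homotopy (Path.refl x), ∀ t, F t ∈ U) :
    IsSimplyConnected U := by
  rw [isSimplyConnected_iff_exists_homotopy_refl_forall_mem]
  refine ⟨hUo.isConnected_iff_isPathConnected.mp hUc, ?_⟩
  intro x γ hγ
  obtain ⟨ε, hε, htame⟩ := htame
  have hQ : IsCompact (range γ) := isCompact_range γ.continuous
  have hQU : range γ ⊆ U := by
    rintro _ ⟨t, rfl⟩
    exact hγ t
  obtain ⟨g, f, hf, hg, hfQ⟩ := exists_push hUo hUc hol hcpt hb hfar hQ hQU hε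
  have hfm : MapsTo f U U := by
    intro z hz
    have := hg ⟨z, hz⟩
    simp only at this
    rw [this]
    exact (g • (⟨z, hz⟩ : U)).2
  let q : Path (f x) (f x) :=
    { toFun := fun t => f (γ t)
      continuous_toFun := hf.continuousOn.comp_continuous γ.continuous hγ
      source' := by simp
      target' := by simp }
  have hq : ∀ t, q t ∈ U ∩ ball b ε := by
    intro t
    refine ⟨hfm (hγ t), ?_⟩
    rw [mem_ball]
    exact hfQ _ ⟨t, rfl⟩
  obtain ⟨F, hF⟩ := htame (f x) q hq
  obtain ⟨f', hf', hfg'⟩ := hol g⁻¹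
  have hinv : ∀ z ∈ U, f' (f z) = z := by
    intro z hz
    have h1 := hg ⟨z, hz⟩
    simp only at h1
    have h2 := hfg' (g • (⟨z, hz⟩ : U))
    rw [h1, h2]
    simp
  have hxU : x ∈ U := by
    have := hγ 0
    simpa using this
  let H : γ.Homotopy (Path.refl x) :=
    { toFun := fun st => f' (F st)
      continuous_toFun := hf'.continuousOn.comp_continuous F.continuous hF
      map_zero_left := by
        intro t
        show f' (F (0, t)) = γ t
        rw [F.apply_zero]
        exact hinv _ (hγ t)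
      map_one_left := by
        intro t
        show f' (F (1, t)) = x
        rw [F.apply_one]
        exact hinv _ hxU
      prop' := by
        intro s t ht
        show f' (F (s, t)) = γ t
        rcases ht with rfl | rfl
        · rw [F.source]
          simp [hinv _ hxU]
        · rw [F.target]
          simp [hinv _ hxU] }
  refine ⟨H, ?_⟩
  intro st
  show f' (F st) ∈ U
  have := hfg' ⟨F st, hF st⟩
  simp only at this
  rw [this]
  exact (g⁻¹ • (⟨F st, hF st⟩ : U)).2

end Vale.Agent.Lib.P274
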