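import Mathlib

/-!
# A planar case of the bounded-domain question of Kollar and Pardon

Auxiliary lemmas: a Harnack-type inequality for zero-free holomorphic maps into the unit disc
(obtained from the Schwarz lemma), and the fact that a cocompact family of holomorphic
automorphisms of a bounded planar domain moves any compact subset arbitrarily close to any
boundary point.
-/

open Complex Metric Set

namespace Vale.Agent.Lib.P274

/-- Harnack-type inequality for holomorphic functions with positive real part on a disc. -/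
theorem harnack_re_pos {F : ℂ → ℂ} {c : ℂ} {r : ℝ} (hr : 0 < r)
    (hF : DifferentiableOn ℂ F (ball c r)) (hpos : ∀ z ∈ ball c r, 0 < (F z).re)
    {w : ℂ} (hw : dist w c ≤ r / 2) :
    (F c).re / 3 ≤ (F w).re ∧ (F w).re ≤ 3 * (F c).re := by
  have hc : c ∈ ball c r := mem_ball_self hr
  have hwb : w ∈ ball c r := by
    rw [mem_ball]; linarith
  set A := F c with hA
  have hApos : 0 < A.re := hpos c hc
  -- the Cayley-type transform
  set T : ℂ → ℂ := fun z => (F z - A) / (F z + (starRingEnd ℂ) A) with hT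
  have hden : ∀ z ∈ ball c r, F z + (starRingEnd ℂ) A ≠ 0 := by
    intro z hz h0
    have := congrArg Complex.re h0
    simp at this
    have := hpos z hz
    linarith
  have hTd : DifferentiableOn ℂ T (ball c r) := by
    apply DifferentiableOn.div
    · exact hF.sub_const _
    · exact hF.add_const _
    · exact hden
  have hTc : T c = 0 := by simp [hT, hA]
  have hTmaps : MapsTo T (ball c r) (closedBall (T c) 1) := by
    intro z hz
    rw [hTc, mem_closedBall, dist_zero_right]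
    simp only [hT]
    rw [norm_div]
    have h1 : 0 < ‖F z + (starRingEnd ℂ) A‖ := norm_pos_iff.mpr (hden z hz)
    rw [div_le_one h1]
    have hz' := hpos z hz
    rw [← sq_le_sq₀ (norm_nonneg _) (norm_nonneg _)]
    rw [Complex.sq_norm, Complex.sq_norm, Complex.normSq_apply, Complex.normSq_apply]
    simp
    nlinarith
  have hS := Complex.dist_le_div_mul_dist_of_mapsTo_ball hTd hTmaps hwb
  rw [hTc, dist_zero_right] at hS
  have hS' : ‖T w‖ ≤ 1 / 2 := by
    calc ‖T w‖ ≤ 1 / r * dist w c := hS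
      _ ≤ 1 / r * (r / 2) := by gcongr
      _ = 1 / 2 := by field_simp
  have h1 : 0 < ‖F w + (starRingEnd ℂ) A‖ := norm_pos_iff.mpr (hden w hwb)
  have hkey : ‖F w - A‖ ≤ 1 / 2 * ‖F w + (starRingEnd ℂ) A‖ := by
    have : ‖T w‖ = ‖F w - A‖ / ‖F w + (starRingEnd ℂ) A‖ := by simp [hT]
    rw [this, div_le_iff₀ h1] at hS'
    exact hS'
  have hwpos := hpos w hwb
  have hsq : ‖F w - A‖ ^ 2 ≤ (1 / 2 * ‖F w + (starRingEnd ℂ) A‖) ^ 2 :=
    pow_le_pow_left₀ (norm_nonneg _) hkey 2
  rw [mul_pow, Complex.sq_norm, Complex.sq_norm, Complex.normSq_apply, Complex.normSq_apply] at hsq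
  simp at hsq
  constructor
  · nlinarith [sq_nonneg ((F w).im - A.im), sq_nonneg ((F w).re - A.re)]
  · nlinarith [sq_nonneg ((F w).im - A.im), sq_nonneg ((F w).re - A.re)]

/-- A zero-free holomorphic function on a disc is the exponential of a holomorphic function. -/
theorem exists_log_on_ball {h : ℂ → ℂ} {c : ℂ} {r : ℝ} (hr : 0 < r)
    (hh : DifferentiableOn ℂ h (ball c r)) (hne : ∀ z ∈ ball c r, h z ≠ 0) :
    ∃ φ : ℂ → ℂ, DifferentiableOn ℂ φ (ball c r) ∧ ∀ z ∈ ball c r, h z = Complex.exp (φ z) := by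
  have hd : DifferentiableOn ℂ (fun z => deriv h z / h z) (ball c r) := by
    apply DifferentiableOn.div (hh.deriv isOpen_ball) hh hne
  obtain ⟨φ, hφ⟩ := hd.isExactOn_ball
  -- k = h * exp (-φ) has zero derivative on the ball
  set k : ℂ → ℂ := fun z => h z * Complex.exp (-φ z) with hk
  have hkd : ∀ z ∈ ball c r, HasDerivAt k 0 z := by
    intro z hz
    have h1 : HasDerivAt h (deriv h z) z :=
      (hh.differentiableAt (isOpen_ball.mem_nhds hz)).hasDerivAt
    have h2 : HasDerivAt (fun z => Complex.exp (-φ z)) (Complex.exp (-φ z) * (-(deriv h z / h z))) z :=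
      ((hφ z hz).neg).cexp
    have h3 := h1.mul h2
    have h4 : deriv h z * Complex.exp (-φ z) + h z * (Complex.exp (-φ z) * (-(deriv h z / h z))) = 0 := by
      have := hne z hz
      field_simp
      ring
    rw [h4] at h3
    exact h3
  have hconst : ∀ z ∈ ball c r, k z = k c := by
    intro z hz
    have hc : c ∈ ball c r := mem_ball_self hr
    have hkdiff : DifferentiableOn ℂ k (ball c r) := fun x hx => (hkd x hx).differentiableAt.differentiableWithinAt
    have := (convex_ball c r).is_const_of_fderivWithin_eq_zero (𝕜 := ℂ) hkdiff (fun x hx => by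
      rw [fderivWithin_eq_fderiv (isOpen_ball.uniqueDiffWithinAt hx) (hkd x hx).differentiableAt]
      ext
      simp [(hkd x hx).hasFDerivAt.fderiv]) hz hc
    exact this
  have hc : c ∈ ball c r := mem_ball_self hr
  have hkc : k c ≠ 0 := by
    simp only [hk]
    exact mul_ne_zero (hne c hc) (Complex.exp_ne_zero _)
  refine ⟨fun z => φ z + Complex.log (k c), ?_, ?_⟩
  · have : DifferentiableOn ℂ φ (ball c r) := fun x hx => (hφ x hx).differentiableAt.differentiableWithinAt
    exact this.add_const _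
  · intro z hz
    rw [Complex.exp_add, Complex.exp_log hkc, ← hconst z hz]
    simp only [hk]
    have : Complex.exp (φ z) * (h z * Complex.exp (-φ z)) = h z * (Complex.exp (φ z) * Complex.exp (-φ z)) := by ring
    rw [this, ← Complex.exp_add]
    simp

/-- Harnack for zero-free holomorphic maps of a disc into the unit disc. -/
theorem harnack_log_norm {h : ℂ → ℂ} {c : ℂ} {r : ℝ} (hr : 0 < r)
    (hh : DifferentiableOn ℂ h (ball c r)) (hne : ∀ z ∈ ball c r, h z ≠ 0)
    (hlt : ∀ z ∈ ball c r, ‖h z‖ < 1) {w : ℂ} (hw : dist w c ≤ r / 2) :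
    -Real.log ‖h w‖ ≤ 3 * (-Real.log ‖h c‖) ∧ -Real.log ‖h c‖ ≤ 3 * (-Real.log ‖h w‖) := by
  obtain ⟨φ, hφd, hφ⟩ := exists_log_on_ball hr hh hne
  have hre : ∀ z ∈ ball c r, Real.log ‖h z‖ = (φ z).re := by
    intro z hz
    rw [hφ z hz, Complex.norm_exp, Real.log_exp]
  have hpos : ∀ z ∈ ball c r, 0 < ((fun z => -φ z) z).re := by
    intro z hz
    simp only [Complex.neg_re]
    rw [← hre z hz]
    have h0 : 0 < ‖h z‖ := norm_pos_iff.mpr (hne z hz)
    have := Real.log_neg h0 (hlt z hz)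
    linarith
  have hc : c ∈ ball c r := mem_ball_self hr
  have hwb : w ∈ ball c r := by
    rw [mem_ball]; linarith
  obtain ⟨h1, h2⟩ := harnack_re_pos hr hφd.neg hpos hw
  have e1 := hre c hc
  have e2 := hre w hwb
  have e3 : ((-φ) c).re = -(φ c).re := Complex.neg_re _
  have e4 : ((-φ) w).re = -(φ w).re := Complex.neg_re _
  rw [e3, e4] at h1 h2
  constructor <;> linarith

/-- Admissible comparison functions: zero-free holomorphic maps of `U` into the unit disc. -/
def Adm (U : Set ℂ) (h : ℂ → ℂ) : Prop :=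
  DifferentiableOn ℂ h U ∧ ∀ z ∈ U, h z ≠ 0 ∧ ‖h z‖ < 1

/-- Two points are `C`-comparable if `-log ‖h‖` at the two points differ by a factor at most `C`
for every admissible `h`. -/
def Comp (U : Set ℂ) (w w' : ℂ) (C : ℝ) : Prop :=
  ∀ h, Adm U h → -Real.log ‖h w‖ ≤ C * (-Real.log ‖h w'‖) ∧ -Real.log ‖h w'‖ ≤ C * (-Real.log ‖h w‖)

theorem Adm.pos {U : Set ℂ} {h : ℂ → ℂ} (hh : Adm U h) {z : ℂ} (hz : z ∈ U) :
    0 < -Real.log ‖h z‖ := by
  have h0 : 0 < ‖h z‖ := norm_pos_iff.mpr (hh.2 z hz).1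
  have := Real.log_neg h0 (hh.2 z hz).2
  linarith

theorem comp_local {U : Set ℂ} {w w' : ℂ} {r : ℝ} (hr : 0 < r) (hb : ball w r ⊆ U)
    (hw : dist w' w ≤ r / 2) : Comp U w w' 3 := by
  intro h hh
  have := harnack_log_norm hr (hh.1.mono hb) (fun z hz => (hh.2 z (hb hz)).1)
    (fun z hz => (hh.2 z (hb hz)).2) hw
  exact ⟨this.2, this.1⟩

theorem Comp.symm {U : Set ℂ} {w w' : ℂ} {C : ℝ} (h : Comp U w w' C) : Comp U w' w C :=
  fun k hk => ⟨(h k hk).2, (h k hk).1⟩

theorem Comp.trans {U : Set ℂ} {w w' w'' : ℂ} {C C' : ℝ} (hC : 0 ≤ C) (hC' : 0 ≤ C')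
    (h : Comp U w w' C) (h' : Comp U w' w'' C') : Comp U w w'' (C * C') := by
  intro k hk
  obtain ⟨a1, a2⟩ := h k hk
  obtain ⟨b1, b2⟩ := h' k hk
  constructor
  · calc -Real.log ‖k w‖ ≤ C * (-Real.log ‖k w'‖) := a1
      _ ≤ C * (C' * (-Real.log ‖k w''‖)) := by gcongr
      _ = C * C' * (-Real.log ‖k w''‖) := by ring
  · calc -Real.log ‖k w''‖ ≤ C' * (-Real.log ‖k w'‖) := b2
      _ ≤ C' * (C * (-Real.log ‖k w‖)) := by gcongr
      _ = C * C' * (-Real.log ‖k w‖) := by ring

theorem comp_all {U : Set ℂ} (hUo : IsOpen U) (hUc : IsPreconnected U) {w0 : ℂ} (hw0 : w0 ∈ U) :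
    ∀ w ∈ U, ∃ C : ℝ, 0 ≤ C ∧ Comp U w0 w C := by
  set A : Set ℂ := {w | w ∈ U ∧ ∃ C : ℝ, 0 ≤ C ∧ Comp U w0 w C} with hA
  set B : Set ℂ := {w | w ∈ U ∧ ¬ ∃ C : ℝ, 0 ≤ C ∧ Comp U w0 w C} with hB
  have hAo : IsOpen A := by
    rw [Metric.isOpen_iff]
    rintro w ⟨hwU, C, hC, hcomp⟩
    obtain ⟨r, hr, hb⟩ := Metric.isOpen_iff.mp hUo w hwU
    refine ⟨r / 2, by positivity, ?_⟩
    intro w' hw'
    rw [mem_ball] at hw'
    refine ⟨hb (by rw [mem_ball]; linarith), 3 * C, by positivity, ?_⟩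
    have := hcomp.trans hC (by norm_num : (0:ℝ) ≤ 3) (comp_local hr hb hw'.le)
    rwa [mul_comm] at this
  have hBo : IsOpen B := by
    rw [Metric.isOpen_iff]
    rintro w ⟨hwU, hnot⟩
    obtain ⟨r, hr, hb⟩ := Metric.isOpen_iff.mp hUo w hwU
    refine ⟨r / 2, by positivity, ?_⟩
    intro w' hw'
    rw [mem_ball] at hw'
    refine ⟨hb (by rw [mem_ball]; linarith), ?_⟩
    rintro ⟨C, hC, hcomp⟩
    apply hnot
    refine ⟨C * 3, by positivity, ?_⟩
    exact hcomp.trans hC (by norm_num : (0:ℝ) ≤ 3) (comp_local hr hb hw'.le).symm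
  intro w hw
  by_contra hcon
  have hcover : U ⊆ A ∪ B := by
    intro z hz
    by_cases hz' : ∃ C : ℝ, 0 ≤ C ∧ Comp U w0 z C
    · exact Or.inl ⟨hz, hz'⟩
    · exact Or.inr ⟨hz, hz'⟩
  have hA' : (U ∩ A).Nonempty := by
    refine ⟨w0, hw0, hw0, 1, zero_le_one, ?_⟩
    intro k hk
    simp
  have hB' : (U ∩ B).Nonempty := ⟨w, hw, hw, hcon⟩
  obtain ⟨z, hz, hzA, hzB⟩ := hUc A B hAo hBo hcover hA' hB'
  exact hzB.2 hzA.2

theorem comp_compact {U : Set ℂ} (hUo : IsOpen U) (hUc : IsPreconnected U) {w0 : ℂ} (hw0 : w0 ∈ U)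
    {Q : Set ℂ} (hQ : IsCompact Q) (hQU : Q ⊆ U) :
    ∃ C : ℝ, 0 ≤ C ∧ ∀ w ∈ Q, Comp U w0 w C := by
  refine hQ.induction_on (p := fun s => ∃ C : ℝ, 0 ≤ C ∧ ∀ w ∈ s, Comp U w0 w C) ?_ ?_ ?_ ?_
  · exact ⟨0, le_refl _, fun w hw => absurd hw (by simp)⟩
  · rintro s t hst ⟨C, hC, h⟩
    exact ⟨C, hC, fun w hw => h w (hst hw)⟩
  · rintro s t ⟨C, hC, h⟩ ⟨C', hC', h'⟩
    refine ⟨max C C', le_max_of_le_left hC, ?_⟩
    rintro w (hw | hw)
    · intro k hk
      obtain ⟨a1, a2⟩ := h w hw k hk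
      have p1 := hk.pos hw0
      have p2 : 0 ≤ -Real.log ‖k w‖ := by
        by_contra hneg
        have hneg' := not_le.mp hneg
        nlinarith
      constructor
      · calc -Real.log ‖k w0‖ ≤ C * (-Real.log ‖k w‖) := a1
          _ ≤ max C C' * (-Real.log ‖k w‖) := by gcongr; exact le_max_left _ _
      · calc -Real.log ‖k w‖ ≤ C * (-Real.log ‖k w0‖) := a2
          _ ≤ max C C' * (-Real.log ‖k w0‖) := by gcongr; exact le_max_left _ _
    · intro k hk
      obtain ⟨a1, a2⟩ := h' w hw k hk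
      have p1 := hk.pos hw0
      have p2 : 0 ≤ -Real.log ‖k w‖ := by
        by_contra hneg
        have hneg' := not_le.mp hneg
        nlinarith
      constructor
      · calc -Real.log ‖k w0‖ ≤ C' * (-Real.log ‖k w‖) := a1
          _ ≤ max C C' * (-Real.log ‖k w‖) := by gcongr; exact le_max_right _ _
      · calc -Real.log ‖k w‖ ≤ C' * (-Real.log ‖k w0‖) := a2
          _ ≤ max C C' * (-Real.log ‖k w0‖) := by gcongr; exact le_max_right _ _
  · intro x hx
    have hxU := hQU hx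
    obtain ⟨C, hC, hcomp⟩ := comp_all hUo hUc hw0 x hxU
    obtain ⟨r, hr, hb⟩ := Metric.isOpen_iff.mp hUo x hxU
    refine ⟨closedBall x (r / 2), ?_, C * 3, by positivity, ?_⟩
    · exact mem_nhdsWithin_of_mem_nhds (closedBall_mem_nhds x (by positivity))
    · intro w hw
      rw [mem_closedBall] at hw
      exact hcomp.trans hC (by norm_num : (0:ℝ) ≤ 3) (comp_local hr hb hw)

/-- If a family of holomorphic self-maps of a bounded domain `U` moves a fixed compact set `K`
onto all of `U`, then every compact subset of `U` can be moved into any neighbourhood of any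
boundary point by a member of the family. -/
theorem push_to_boundary {U : Set ℂ} (hUo : IsOpen U) (hUc : IsPreconnected U)
    (hUb : Bornology.IsBounded U) {b : ℂ} (hbU : b ∉ U) (hbc : b ∈ closure U)
    (𝒜 : Set (ℂ → ℂ)) (h𝒜 : ∀ f ∈ 𝒜, DifferentiableOn ℂ f U ∧ MapsTo f U U)
    {K : Set ℂ} (hK : IsCompact K) (hKU : K ⊆ U)
    (hcov : ∀ z ∈ U, ∃ f ∈ 𝒜, ∃ k ∈ K, f k = z)
    {Q : Set ℂ} (hQ : IsCompact Q) (hQU : Q ⊆ U) {ε : ℝ} (hε : 0 < ε) :
    ∃ f ∈ 𝒜, ∀ q ∈ Q, dist (f q) b < ε := by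
  obtain ⟨w0, hw0⟩ : U.Nonempty := by
    by_contra hne
    rw [not_nonempty_iff_eq_empty] at hne
    rw [hne] at hbc
    simp at hbc
  -- a bound for the distance to b
  obtain ⟨M, hM⟩ : ∃ M : ℝ, ∀ z ∈ U, dist z b < M := by
    obtain ⟨R, hR⟩ := hUb.subset_ball b
    exact ⟨R, fun z hz => by simpa [mem_ball] using hR hz⟩
  have hMpos : 0 < M := lt_of_le_of_lt dist_nonneg (hM w0 hw0)
  have hadm : ∀ f ∈ 𝒜, Adm U (fun z => (f z - b) / M) := by
    intro f hf
    obtain ⟨hfd, hfm⟩ := h𝒜 f hf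
    refine ⟨(hfd.sub_const b).div_const _, ?_⟩
    intro z hz
    have hfz : f z ∈ U := hfm hz
    constructor
    · apply div_ne_zero
      · intro h0
        apply hbU
        rw [sub_eq_zero] at h0
        rwa [← h0]
      · exact_mod_cast hMpos.ne'
    · rw [norm_div, Complex.norm_real, Real.norm_of_nonneg hMpos.le, div_lt_one hMpos,
        ← dist_eq_norm]
      exact hM _ hfz
  obtain ⟨C, hC, hcomp⟩ := comp_compact hUo hUc hw0 (hQ.union hK) (union_subset hQU hKU)
  set Λ : ℝ := Real.log (M / ε) with hΛ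
  set D : ℝ := C ^ 2 + 1 with hD
  have hDpos : 0 < D := by positivity
  set δ : ℝ := M * Real.exp (-(D * |Λ|)) with hδ
  have hδpos : 0 < δ := by positivity
  obtain ⟨z, hzU, hzb⟩ := Metric.mem_closure_iff.mp hbc δ hδpos
  obtain ⟨f, hf, k, hk, hfk⟩ := hcov z hzU
  refine ⟨f, hf, ?_⟩
  intro q hq
  have hA := hadm f hf
  obtain ⟨a1, a2⟩ := hcomp q (Or.inl hq) _ hA
  obtain ⟨b1, b2⟩ := hcomp k (Or.inr hk) _ hA
  have pq := hA.pos (hQU hq)
  have pk := hA.pos (hKU hk)
  have p0 := hA.pos hw0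
  -- L(k) ≤ C^2 L(q) ≤ D L(q)
  have hkq : -Real.log ‖(f k - b) / (M:ℂ)‖ ≤ D * (-Real.log ‖(f q - b) / (M:ℂ)‖) := by
    calc -Real.log ‖(f k - b) / (M:ℂ)‖ ≤ C * (-Real.log ‖(f w0 - b) / (M:ℂ)‖) := b2
      _ ≤ C * (C * (-Real.log ‖(f q - b) / (M:ℂ)‖)) := by gcongr
      _ = C ^ 2 * (-Real.log ‖(f q - b) / (M:ℂ)‖) := by ring
      _ ≤ D * (-Real.log ‖(f q - b) / (M:ℂ)‖) := by
        rw [hD]; nlinarith
  -- L(k) > D |Λ|
  have hnk : ‖(f k - b) / (M:ℂ)‖ = dist z b / M := by
    rw [norm_div, Complex.norm_real, Real.norm_of_nonneg hMpos.le, ← dist_eq_norm, hfk]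
  have hzb' : dist b z = dist z b := dist_comm _ _
  have hzpos : 0 < dist z b := by
    rw [dist_pos]
    rintro rfl
    exact hbU hzU
  have hLk : D * |Λ| < -Real.log ‖(f k - b) / (M:ℂ)‖ := by
    rw [hnk]
    have h1 : dist z b / M < Real.exp (-(D * |Λ|)) := by
      rw [div_lt_iff₀ hMpos, mul_comm]
      rw [hzb'] at hzb
      exact hzb
    have h2 := Real.log_lt_log (by positivity) h1
    rw [Real.log_exp] at h2
    linarith
  have hLq : Λ < -Real.log ‖(f q - b) / (M:ℂ)‖ := by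
    have : |Λ| < -Real.log ‖(f q - b) / (M:ℂ)‖ := by
      by_contra hcon
      have hcon' := not_lt.mp hcon
      nlinarith
    exact lt_of_le_of_lt (le_abs_self _) this
  have hnq : ‖(f q - b) / (M:ℂ)‖ = dist (f q) b / M := by
    rw [norm_div, Complex.norm_real, Real.norm_of_nonneg hMpos.le, ← dist_eq_norm]
  rw [hnq] at hLq
  have hqpos : 0 < dist (f q) b / M := by
    have := norm_pos_iff.mpr (hA.2 q (hQU hq)).1
    rwa [hnq] at this
  by_contra hcon
  have hcon' := not_lt.mp hcon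
  have h3 : ε / M ≤ dist (f q) b / M := by gcongr
  have h4 := Real.log_le_log (by positivity) h3
  have h5 : Real.log (ε / M) = -Λ := by
    rw [hΛ, ← Real.log_inv, inv_div]
  linarith

theorem exists_compact_fundamental {U : Set ℂ} (hUo : IsOpen U) {G : Type*} [Group G]
    [MulAction G U] (hcont : ∀ g : G, Continuous (fun z : U => g • z))
    [CompactSpace (MulAction.orbitRel.Quotient G U)] :
    ∃ K : Set ℂ, IsCompact K ∧ K ⊆ U ∧ ∀ z : U, ∃ g : G, ∃ k : U, (k : ℂ) ∈ K ∧ g • k = z := by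
  have : ContinuousConstSMul G U := ⟨hcont⟩
  have hr : ∀ z : U, ∃ r : ℝ, 0 < r ∧ closedBall (z : ℂ) r ⊆ U := by
    intro z
    obtain ⟨r, hr, hb⟩ := Metric.isOpen_iff.mp hUo z z.2
    exact ⟨r / 2, by positivity, (closedBall_subset_ball (by linarith)).trans hb⟩
  choose r hrpos hrsub using hr
  let π : U → MulAction.orbitRel.Quotient G U := Quotient.mk (MulAction.orbitRel G U)
  have hπo : IsOpenMap π := isOpenMap_quotient_mk'_mul
  let V : U → Set (MulAction.orbitRel.Quotient G U) :=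
    fun z => π '' {w : U | (w : ℂ) ∈ ball (z : ℂ) (r z)}
  have hVo : ∀ z, IsOpen (V z) := by
    intro z
    apply hπo
    exact isOpen_ball.preimage continuous_subtype_val
  have hVcov : (univ : Set (MulAction.orbitRel.Quotient G U)) ⊆ ⋃ z, V z := by
    intro x _
    obtain ⟨z, rfl⟩ := Quotient.mk_surjective x
    exact mem_iUnion.mpr ⟨z, z, by simp [hrpos z], rfl⟩
  obtain ⟨t, ht⟩ := isCompact_univ.elim_finite_subcover V hVo hVcov
  refine ⟨⋃ z ∈ t, closedBall (z : ℂ) (r z), ?_, ?_, ?_⟩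
  · exact t.isCompact_biUnion (fun z _ => isCompact_closedBall _ _)
  · exact iUnion₂_subset (fun z _ => hrsub z)
  · intro w
    have hw : π w ∈ ⋃ z ∈ t, V z := ht (mem_univ _)
    obtain ⟨z, hz, w', hw', hww'⟩ := mem_iUnion₂.mp hw
    have hrel : MulAction.orbitRel G U w' w := Quotient.exact hww'
    rw [MulAction.orbitRel_apply] at hrel
    obtain ⟨g, hg⟩ := hrel
    refine ⟨g⁻¹, w', ?_, ?_⟩
    · exact mem_iUnion₂.mpr ⟨z, hz, ball_subset_closedBall hw'⟩
    · rw [← hg]
      simp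

/-- A bounded planar domain carrying a cocompact group action by holomorphic maps, and which is
tame near one boundary point (small loops near that point contract in the domain), is simply
connected. -/
theorem planar_simply_connected {U : Set ℂ} (hUo : IsOpen U) (hUc : IsConnected U)
    (hUb : Bornology.IsBounded U)
    {G : Type*} [Group G] [MulAction G U]
    (hol : ∀ g : G, ∃ f : ℂ → ℂ, DifferentiableOn ℂ f U ∧ ∀ z : U, f z = ((g • z : U) : ℂ))
    (hcpt : CompactSpace (MulAction.orbitRel.Quotient G U))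
    (htame : ∃ b ∈ frontier U, ∃ ε > 0, ∀ (x : ℂ) (p : Path x x),
      (∀ t, p t ∈ U ∩ ball b ε) → ∃ F : p.Homotopy (Path.refl x), ∀ t, F t ∈ U) :
    IsSimplyConnected U := by
  rw [isSimplyConnected_iff_exists_homotopy_refl_forall_mem]
  refine ⟨hUo.isConnected_iff_isPathConnected.mp hUc, ?_⟩
  intro x p hp
  obtain ⟨b, hb, ε, hε, htame⟩ := htame
  have hbc : b ∈ closure U := frontier_subset_closure hb
  have hbU : b ∉ U := by
    intro hbU
    rw [frontier, hUo.interior_eq] at hb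
    exact hb.2 hbU
  -- continuity of the action
  have hcont : ∀ g : G, Continuous (fun z : U => g • z) := by
    intro g
    obtain ⟨f, hf, hfg⟩ := hol g
    have h1 : Continuous (fun z : U => f z) :=
      hf.continuousOn.comp_continuous continuous_subtype_val (fun z => z.2)
    have h2 : (fun z : U => ((g • z : U) : ℂ)) = fun z : U => f z := by
      funext z; exact (hfg z).symm
    exact Continuous.subtype_mk (f := fun z : U => ((g • z : U) : ℂ)) (h2 ▸ h1) _
  obtain ⟨K, hK, hKU, hKcov⟩ := exists_compact_fundamental hUo hcont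
  set 𝒜 : Set (ℂ → ℂ) :=
    {f | DifferentiableOn ℂ f U ∧ ∃ g : G, (∀ z : U, f z = ((g • z : U) : ℂ))} with h𝒜def
  have h𝒜 : ∀ f ∈ 𝒜, DifferentiableOn ℂ f U ∧ MapsTo f U U := by
    rintro f ⟨hf, g, hg⟩
    refine ⟨hf, fun z hz => ?_⟩
    have := hg ⟨z, hz⟩
    simp only at this
    rw [this]
    exact (g • (⟨z, hz⟩ : U)).2
  have hcov : ∀ z ∈ U, ∃ f ∈ 𝒜, ∃ k ∈ K, f k = z := by
    intro z hz
    obtain ⟨g, k, hk, hgk⟩ := hKcov ⟨z, hz⟩
    obtain ⟨f, hf, hfg⟩ := hol g
    refine ⟨f, ⟨hf, g, hfg⟩, k, hk, ?_⟩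
    rw [hfg k, hgk]
  have hQ : IsCompact (range p) := isCompact_range p.continuous
  have hQU : range p ⊆ U := by
    rintro _ ⟨t, rfl⟩
    exact hp t
  obtain ⟨f, ⟨hf, g, hg⟩, hfQ⟩ :=
    push_to_boundary hUo hUc.isPreconnected hUb hbU hbc 𝒜 h𝒜 hK hKU hcov hQ hQU hε
  have hfm : MapsTo f U U := (h𝒜 f ⟨hf, g, hg⟩).2
  -- the transported loop
  let q : Path (f x) (f x) :=
    { toFun := fun t => f (p t)
      continuous_toFun := hf.continuousOn.comp_continuous p.continuous hp
      source' := by simp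
      target' := by simp }
  have hq : ∀ t, q t ∈ U ∩ ball b ε := by
    intro t
    refine ⟨hfm (hp t), ?_⟩
    rw [mem_ball]
    exact hfQ _ ⟨t, rfl⟩
  obtain ⟨F, hF⟩ := htame (f x) q hq
  -- the inverse map
  obtain ⟨f', hf', hfg'⟩ := hol g⁻¹
  have hinv : ∀ z ∈ U, f' (f z) = z := by
    intro z hz
    have h1 := hg ⟨z, hz⟩
    simp only at h1
    have h2 := hfg' (g • (⟨z, hz⟩ : U))
    rw [h1, h2]
    simp
  have hxU : x ∈ U := by
    have := hp 0
    simpa using this
  let H : p.Homotopy (Path.refl x) :=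
    { toFun := fun st => f' (F st)
      continuous_toFun := hf'.continuousOn.comp_continuous F.continuous hF
      map_zero_left := by
        intro t
        show f' (F (0, t)) = p t
        rw [F.apply_zero]
        exact hinv _ (hp t)
      map_one_left := by
        intro t
        show f' (F (1, t)) = x
        rw [F.apply_one]
        exact hinv _ hxU
      prop' := by
        intro s t ht
        show f' (F (s, t)) = p t
        rcases ht with rfl | rfl
        · rw [F.source]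
          simp [hinv _ hxU]
        · rw [F.target]
          simp [hinv _ hxU] }
  refine ⟨H, ?_⟩
  intro st
  show f' (F st) ∈ U
  have := hfg' ⟨F st, hF st⟩
  simp only at this
  rw [this]
  exact (g⁻¹ • (⟨F st, hF st⟩ : U)).2

end Vale.Agent.Lib.P274
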