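import Mathlib
open Complex Metric Set Filter Topology

namespace Vale.Agent.Lib.P274

/-- One-function form of Hurwitz: a zero-free holomorphic function on a closed disc which is
uniformly close to `H`, where `H` is bounded below on the bounding circle, forces `H` to be
nonzero at the centre. -/
theorem hurwitz_aux {h H : ℂ → ℂ} {b : ℂ} {r δ : ℝ} (hr : 0 < r) (hδ : 0 < δ)
    (hd : DiffContOnCl ℂ h (ball b r)) (h0 : ∀ z ∈ closedBall b r, h z ≠ 0)
    (hclose : ∀ z ∈ closedBall b r, dist (H z) (h z) < δ / 2)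
    (hHs : ∀ z ∈ sphere b r, δ ≤ ‖H z‖) : H b ≠ 0 := by
  have hcl : closure (ball b r) = closedBall b r := closure_ball b hr.ne'
  have hinv : DiffContOnCl ℂ (fun z => (h z)⁻¹) (ball b r) := by
    apply DiffContOnCl.inv hd
    intro z hz
    rw [hcl] at hz
    exact h0 z hz
  have hbound : ∀ z ∈ frontier (ball b r), ‖(h z)⁻¹‖ ≤ 2 / δ := by
    intro z hz
    rw [frontier_ball b hr.ne'] at hz
    have hz' : z ∈ closedBall b r := sphere_subset_closedBall hz
    have h1 := hHs z hz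
    have h2 := hclose z hz'
    rw [dist_eq_norm] at h2
    have h3 : ‖H z‖ ≤ ‖H z - h z‖ + ‖h z‖ := by
      have := norm_add_le (H z - h z) (h z)
      simpa using this
    have h4 : δ / 2 ≤ ‖h z‖ := by linarith
    rw [norm_inv]
    have h5 : 0 < ‖h z‖ := by linarith
    rw [inv_le_comm₀ h5 (by positivity)]
    rw [inv_div]
    exact h4
  have hb : b ∈ closure (ball b r) := by
    rw [hcl]; exact mem_closedBall_self hr.le
  have h6 := Complex.norm_le_of_forall_mem_frontier_norm_le isBounded_ball hinv hbound hb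
  have hb' : b ∈ closedBall b r := mem_closedBall_self hr.le
  have h7 : h b ≠ 0 := h0 b hb'
  have h8 : δ / 2 ≤ ‖h b‖ := by
    rw [norm_inv] at h6
    have h9 : 0 < ‖h b‖ := norm_pos_iff.mpr h7
    rw [inv_le_comm₀ h9 (by positivity), inv_div] at h6
    exact h6
  have h10 := hclose b hb'
  rw [dist_eq_norm] at h10
  intro hHb
  rw [hHb, zero_sub, norm_neg] at h10
  linarith

/-- Hurwitz: a locally uniform limit of zero-free holomorphic functions on a connected open set
either has no zero or vanishes identically. -/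
theorem zero_free_limit {ι : Type*} {φ : Filter ι} [φ.NeBot] {U : Set ℂ} (hUo : IsOpen U)
    (hUc : IsPreconnected U) {h : ι → ℂ → ℂ} {H : ℂ → ℂ}
    (hd : ∀ n, DifferentiableOn ℂ (h n) U) (h0 : ∀ n, ∀ z ∈ U, h n z ≠ 0)
    (hlim : TendstoLocallyUniformlyOn h H φ U) {b : ℂ} (hb : b ∈ U) (hHb : H b = 0) :
    ∀ z ∈ U, H z = 0 := by
  have hHd : DifferentiableOn ℂ H U := hlim.differentiableOn (Eventually.of_forall hd) hUo
  have hHa : AnalyticOnNhd ℂ H U := hHd.analyticOnNhd hUo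
  by_contra hcon
  have hnf : ¬ ∃ᶠ z in 𝓝[≠] b, H z = 0 := by
    intro hf
    exact hcon (fun z hz => hHa.eqOn_zero_of_preconnected_of_frequently_eq_zero hUc hb hf hz)
  rw [not_frequently] at hnf
  -- a radius on whose circle `H` does not vanish
  obtain ⟨ρ, hρ, hρ'⟩ : ∃ ρ > 0, ∀ z, dist z b < ρ → z ≠ b → H z ≠ 0 := by
    rw [eventually_nhdsWithin_iff, Metric.eventually_nhds_iff] at hnf
    obtain ⟨ρ, hρ, h⟩ := hnf
    exact ⟨ρ, hρ, fun z hz hne => h hz hne⟩
  obtain ⟨ρ₀, hρ₀, hρ₀'⟩ := Metric.isOpen_iff.mp hUo b hb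
  set r : ℝ := min ρ ρ₀ / 2 with hrdef
  have hr : 0 < r := by positivity
  have hrρ : r < ρ := by
    have := min_le_left ρ ρ₀
    rw [hrdef]; linarith
  have hrρ₀ : r < ρ₀ := by
    have := min_le_right ρ ρ₀
    rw [hrdef]; linarith
  have hsub : closedBall b r ⊆ U := (closedBall_subset_ball hrρ₀).trans hρ₀'
  -- minimum of `‖H‖` on the circle
  have hsc : IsCompact (sphere b r) := isCompact_sphere b r
  have hsne : (sphere b r).Nonempty := NormedSpace.sphere_nonempty.mpr hr.le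
  have hcontH : ContinuousOn (fun z => ‖H z‖) (sphere b r) :=
    (hHd.continuousOn.mono (sphere_subset_closedBall.trans hsub)).norm
  obtain ⟨z₁, hz₁, hmin⟩ := hsc.exists_isMinOn hsne hcontH
  have hz₁ne : H z₁ ≠ 0 := by
    apply hρ' z₁
    · rw [mem_sphere] at hz₁; rw [hz₁]; exact hrρ
    · intro h; rw [h, mem_sphere, dist_self] at hz₁; exact hr.ne hz₁
  set δ : ℝ := ‖H z₁‖ with hδdef
  have hδ : 0 < δ := norm_pos_iff.mpr hz₁ne
  have hunif : TendstoUniformlyOn h H φ (closedBall b r) :=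
    (tendstoLocallyUniformlyOn_iff_forall_isCompact hUo).mp hlim _ hsub (isCompact_closedBall b r)
  rw [Metric.tendstoUniformlyOn_iff] at hunif
  obtain ⟨n, hn⟩ := (hunif (δ / 2) (by positivity)).exists
  have hdn : DiffContOnCl ℂ (h n) (ball b r) := (hd n).diffContOnCl_ball hsub
  exact hurwitz_aux hr hδ hdn (fun z hz => h0 n z (hsub hz)) hn
    (fun z hz => hmin hz) hHb


/-- Montel along an ultrafilter: a sequence of holomorphic maps of an open set into the closed
unit disc converges locally uniformly along any ultrafilter. -/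
theorem exists_limit_ultrafilter {U : Set ℂ} (hUo : IsOpen U) (F : ℕ → ℂ → ℂ)
    (hF : ∀ n, DifferentiableOn ℂ (F n) U) (hb : ∀ n, ∀ z ∈ U, ‖F n z‖ ≤ 1)
    (φ : Ultrafilter ℕ) :
    ∃ f : ℂ → ℂ, TendstoLocallyUniformlyOn F f φ U ∧ ∀ z ∈ U, Tendsto (fun n => F n z) φ (𝓝 (f z)) := by
  -- pointwise limits
  have hpt : ∀ z, ∃ x : ℂ, z ∈ U → Tendsto (fun n => F n z) φ (𝓝 x) := by
    intro z
    by_cases hz : z ∈ U
    · have hle : ((φ.map (fun n => F n z) : Ultrafilter ℂ) : Filter ℂ) ≤ 𝓟 (closedBall (0:ℂ) 1) := by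
        rw [le_principal_iff]
        show (fun n => F n z) ⁻¹' closedBall 0 1 ∈ (φ : Filter ℕ)
        apply Filter.univ_mem'
        intro n
        simp only [mem_preimage, mem_closedBall, dist_zero_right]
        exact hb n z hz
      obtain ⟨x, -, hx⟩ := (isCompact_closedBall (0:ℂ) 1).ultrafilter_le_nhds _ hle
      exact ⟨x, fun _ => hx⟩
    · exact ⟨0, fun h => absurd h hz⟩
  choose f hf using hpt
  refine ⟨f, ?_, fun z hz => hf z hz⟩
  rw [Metric.tendstoLocallyUniformlyOn_iff]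
  intro ε hε x hx
  obtain ⟨r, hr, hball⟩ := Metric.isOpen_iff.mp hUo x hx
  -- Lipschitz estimate from the Schwarz lemma
  have hlip : ∀ n, ∀ y ∈ ball x r, dist (F n y) (F n x) ≤ 2 / r * dist y x := by
    intro n y hy
    apply Complex.dist_le_div_mul_dist_of_mapsTo_ball ((hF n).mono hball) _ hy
    intro w hw
    rw [mem_closedBall, dist_eq_norm]
    calc ‖F n w - F n x‖ ≤ ‖F n w‖ + ‖F n x‖ := norm_sub_le _ _
      _ ≤ 1 + 1 := add_le_add (hb n w (hball hw)) (hb n x hx)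
      _ = 2 := by norm_num
  have hlipf : ∀ y ∈ ball x r, dist (f y) (f x) ≤ 2 / r * dist y x := by
    intro y hy
    have h1 : Tendsto (fun n => dist (F n y) (F n x)) φ (𝓝 (dist (f y) (f x))) :=
      (hf y (hball hy)).dist (hf x hx)
    exact le_of_tendsto h1 (Eventually.of_forall (fun n => hlip n y hy))
  set ρ : ℝ := min r (ε * r / 8) with hρdef
  have hρ : 0 < ρ := by positivity
  refine ⟨ball x ρ, mem_nhdsWithin_of_mem_nhds (ball_mem_nhds x hρ), ?_⟩
  have hev : ∀ᶠ n in (φ : Filter ℕ), dist (F n x) (f x) < ε / 2 :=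
    (Metric.tendsto_nhds.mp (hf x hx)) (ε / 2) (by positivity)
  filter_upwards [hev] with n hn
  intro y hy
  have hyr : y ∈ ball x r := ball_subset_ball (min_le_left _ _) hy
  have hyρ : dist y x < ε * r / 8 := lt_of_lt_of_le hy (min_le_right _ _)
  have h1 := hlip n y hyr
  have h2 := hlipf y hyr
  have h3 : 2 / r * dist y x < ε / 4 := by
    have : 2 / r * dist y x < 2 / r * (ε * r / 8) := by
      apply mul_lt_mul_of_pos_left hyρ; positivity
    have h4 : 2 / r * (ε * r / 8) = ε / 4 := by field_simp; ring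
    linarith
  calc dist (f y) (F n y) ≤ dist (f y) (f x) + dist (f x) (F n x) + dist (F n x) (F n y) :=
        dist_triangle4 _ _ _ _
    _ < ε / 4 + ε / 2 + ε / 4 := by
        have e1 : dist (f x) (F n x) = dist (F n x) (f x) := dist_comm _ _
        have e2 : dist (F n x) (F n y) = dist (F n y) (F n x) := dist_comm _ _
        rw [e1, e2]
        linarith
    _ = ε := by ring


/-- The disc automorphism `w ↦ (w - a) / (1 - conj a * w)`. -/
noncomputable def mob (a w : ℂ) : ℂ := (w - a) / (1 - (starRingEnd ℂ) a * w)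

theorem normSq_lt_one_of_norm_lt_one {a : ℂ} (ha : ‖a‖ < 1) : a.re * a.re + a.im * a.im < 1 := by
  have h1 : ‖a‖ ^ 2 < 1 := by
    have := norm_nonneg a
    nlinarith
  rw [Complex.sq_norm, Complex.normSq_apply] at h1
  exact h1

theorem mob_denom_ne {a w : ℂ} (ha : ‖a‖ < 1) (hw : ‖w‖ < 1) :
    1 - (starRingEnd ℂ) a * w ≠ 0 := by
  intro h
  have h1 : (starRingEnd ℂ) a * w = 1 := by
    rw [sub_eq_zero] at h; exact h.symm
  have h2 : ‖(starRingEnd ℂ) a * w‖ = 1 := by rw [h1]; simp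
  rw [norm_mul, RCLike.norm_conj] at h2
  have h3 : ‖a‖ * ‖w‖ < 1 := by
    have := norm_nonneg a
    have := norm_nonneg w
    nlinarith
  linarith

theorem mob_norm_lt {a w : ℂ} (ha : ‖a‖ < 1) (hw : ‖w‖ < 1) : ‖mob a w‖ < 1 := by
  have hden := mob_denom_ne ha hw
  unfold mob
  rw [norm_div, div_lt_one (norm_pos_iff.mpr hden)]
  have ha' := normSq_lt_one_of_norm_lt_one ha
  have hw' := normSq_lt_one_of_norm_lt_one hw
  have key : ‖w - a‖ ^ 2 < ‖1 - (starRingEnd ℂ) a * w‖ ^ 2 := by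
    rw [Complex.sq_norm, Complex.sq_norm, Complex.normSq_apply, Complex.normSq_apply]
    simp only [Complex.sub_re, Complex.sub_im, Complex.one_re, Complex.one_im, Complex.mul_re,
      Complex.mul_im, Complex.conj_re, Complex.conj_im]
    have := mul_pos (sub_pos.mpr ha') (sub_pos.mpr hw')
    nlinarith
  exact lt_of_pow_lt_pow_left₀ 2 (norm_nonneg _) key

theorem mob_self (a : ℂ) : mob a a = 0 := by simp [mob]

theorem mob_zero (a : ℂ) : mob a 0 = -a := by simp [mob]

theorem mob_injOn {a : ℂ} (ha : ‖a‖ < 1) : InjOn (mob a) (ball 0 1) := by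
  intro w hw w' hw' h
  rw [mem_ball, dist_zero_right] at hw hw'
  have hd := mob_denom_ne ha hw
  have hd' := mob_denom_ne ha hw'
  unfold mob at h
  rw [div_eq_div_iff hd hd'] at h
  have ha' := normSq_lt_one_of_norm_lt_one ha
  have h1 : (w - w') * (1 - (starRingEnd ℂ) a * a) = 0 := by linear_combination h
  have h2 : (1 - (starRingEnd ℂ) a * a) ≠ 0 := by
    intro h0
    have := congrArg Complex.re h0
    simp at this
    nlinarith
  rcases mul_eq_zero.mp h1 with h3 | h3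
  · exact sub_eq_zero.mp h3
  · exact absurd h3 h2

theorem mob_hasDerivAt {a w : ℂ} (ha : ‖a‖ < 1) (hw : ‖w‖ < 1) :
    HasDerivAt (mob a) ((1 - (starRingEnd ℂ) a * a) / (1 - (starRingEnd ℂ) a * w) ^ 2) w := by
  have hden := mob_denom_ne ha hw
  have h1 : HasDerivAt (fun w : ℂ => w - a) 1 w := (hasDerivAt_id w).sub_const a
  have h2 : HasDerivAt (fun w : ℂ => 1 - (starRingEnd ℂ) a * w) (-(starRingEnd ℂ) a) w := by
    have := ((hasDerivAt_id w).const_mul ((starRingEnd ℂ) a)).const_sub 1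
    simpa using this
  have h3 := h1.div h2 hden
  have e : (1 * (1 - (starRingEnd ℂ) a * w) - (w - a) * -(starRingEnd ℂ) a) / (1 - (starRingEnd ℂ) a * w) ^ 2
      = (1 - (starRingEnd ℂ) a * a) / (1 - (starRingEnd ℂ) a * w) ^ 2 := by
    congr 1
    ring
  rw [e] at h3
  exact h3

theorem mob_differentiableOn {a : ℂ} (ha : ‖a‖ < 1) : DifferentiableOn ℂ (mob a) (ball 0 1) := by
  intro w hw
  rw [mem_ball, dist_zero_right] at hw
  exact (mob_hasDerivAt ha hw).differentiableAt.differentiableWithinAt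

theorem mob_mapsTo {a : ℂ} (ha : ‖a‖ < 1) : MapsTo (mob a) (ball 0 1) (ball 0 1) := by
  intro w hw
  rw [mem_ball, dist_zero_right] at hw ⊢
  exact mob_norm_lt ha hw


/-- Holomorphic square roots of zero-free holomorphic functions on simply connected open sets. -/
theorem exists_sqrt {U : Set ℂ} (hUo : IsOpen U) (hUsc : IsSimplyConnected U) {g : ℂ → ℂ}
    (hg : DifferentiableOn ℂ g U) (hg0 : ∀ z ∈ U, g z ≠ 0) :
    ∃ k : ℂ → ℂ, (∀ z, k z ^ 2 = g z) ∧ ∀ z ∈ U, HasDerivAt k (deriv g z / (2 * k z)) z := by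
  have h0 : (0 : ℂ) ∉ g '' U := by
    rintro ⟨z, hz, hz0⟩
    exact hg0 z hz hz0
  obtain ⟨k, hkc, hk⟩ := Complex.exists_continuousOn_pow_eq hUsc hUo hg.continuousOn h0
    (n := 2) two_ne_zero
  refine ⟨k, hk, ?_⟩
  intro z hz
  have hkz : k z ≠ 0 := by
    intro h
    have := hk z
    rw [h] at this
    simp at this
    exact hg0 z hz this.symm
  have hgd : HasDerivAt g (deriv g z) z := (hg.differentiableAt (hUo.mem_nhds hz)).hasDerivAt
  rw [hasDerivAt_iff_tendsto_slope] at hgd ⊢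
  have hkcont : ContinuousAt k z := hkc.continuousAt (hUo.mem_nhds hz)
  have hsum : Tendsto (fun y => k y + k z) (𝓝[≠] z) (𝓝 (2 * k z)) := by
    have h1 : Tendsto (fun y => k y + k z) (𝓝 z) (𝓝 (k z + k z)) :=
      (hkcont.tendsto).add tendsto_const_nhds
    rw [← two_mul] at h1
    exact h1.mono_left nhdsWithin_le_nhds
  have h2 : (2 : ℂ) * k z ≠ 0 := mul_ne_zero two_ne_zero hkz
  have hquot : Tendsto (fun y => slope g z y / (k y + k z)) (𝓝[≠] z) (𝓝 (deriv g z / (2 * k z))) :=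
    hgd.div hsum h2
  apply hquot.congr'
  have hne : ∀ᶠ y in 𝓝[≠] z, k y + k z ≠ 0 := hsum.eventually_ne h2
  filter_upwards [hne, self_mem_nhdsWithin] with y hy hyz
  rw [slope_def_field, slope_def_field]
  have hyz' : y - z ≠ 0 := sub_ne_zero.mpr hyz
  have e : g y - g z = (k y - k z) * (k y + k z) := by
    rw [← hk y, ← hk z]; ring
  rw [e]
  field_simp

/-- The family of normalised injective holomorphic maps of `U` into the unit disc. -/
def RMFam (U : Set ℂ) (z₀ : ℂ) : Set (ℂ → ℂ) :=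
  {f | DifferentiableOn ℂ f U ∧ InjOn f U ∧ MapsTo f U (ball 0 1) ∧ (∀ z ∈ U, deriv f z ≠ 0) ∧
    f z₀ = 0}

theorem rmfam_nonempty {U : Set ℂ} (hUb : Bornology.IsBounded U) {z₀ : ℂ} (hz₀ : z₀ ∈ U) :
    ∃ f ∈ RMFam U z₀, 0 < ‖deriv f z₀‖ := by
  obtain ⟨R, hR⟩ := hUb.subset_ball z₀
  have hRpos : 0 < R := by
    have := hR hz₀
    rw [mem_ball, dist_self] at this
    exact this
  have hderiv : ∀ z : ℂ, HasDerivAt (fun z : ℂ => (z - z₀) / (R : ℂ)) (1 / (R : ℂ)) z := by
    intro z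
    exact ((hasDerivAt_id z).sub_const z₀).div_const _
  have hRne : (R : ℂ) ≠ 0 := by exact_mod_cast hRpos.ne'
  refine ⟨fun z => (z - z₀) / (R : ℂ), ⟨?_, ?_, ?_, ?_, ?_⟩, ?_⟩
  · exact fun z _ => (hderiv z).differentiableAt.differentiableWithinAt
  · intro z _ w _ h
    have h' : (z - z₀) / (R : ℂ) = (w - z₀) / (R : ℂ) := h
    rw [div_left_inj' hRne] at h'
    exact sub_left_injective h'
  · intro z hz
    have := hR hz
    rw [mem_ball, dist_eq_norm] at this
    rw [mem_ball, dist_zero_right, norm_div, Complex.norm_real, Real.norm_of_nonneg hRpos.le,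
      div_lt_one hRpos]
    exact this
  · intro z _
    rw [(hderiv z).deriv]
    exact one_div_ne_zero hRne
  · simp
  · rw [(hderiv z₀).deriv]
    exact norm_pos_iff.mpr (one_div_ne_zero hRne)

theorem rmfam_deriv_bound {U : Set ℂ} (hUo : IsOpen U) {z₀ : ℂ} (hz₀ : z₀ ∈ U) :
    ∃ B : ℝ, ∀ f ∈ RMFam U z₀, ‖deriv f z₀‖ ≤ B := by
  obtain ⟨r, hr, hball⟩ := Metric.isOpen_iff.mp hUo z₀ hz₀
  refine ⟨1 / r, ?_⟩
  rintro f ⟨hfd, -, hfm, -, hf0⟩
  apply Complex.norm_deriv_le_div_of_mapsTo_ball (hfd.mono hball) _ hr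
  intro w hw
  rw [hf0]
  exact ball_subset_closedBall (hfm (hball hw))

/-- Existence of an extremal map. -/
theorem exists_maximizer {U : Set ℂ} (hUo : IsOpen U) (hUc : IsPreconnected U)
    (hUb : Bornology.IsBounded U) {z₀ : ℂ} (hz₀ : z₀ ∈ U) :
    ∃ f ∈ RMFam U z₀, ∀ g ∈ RMFam U z₀, ‖deriv g z₀‖ ≤ ‖deriv f z₀‖ := by
  set S : Set ℝ := (fun f : ℂ → ℂ => ‖deriv f z₀‖) '' RMFam U z₀ with hS
  obtain ⟨f₀, hf₀, hf₀pos⟩ := rmfam_nonempty hUb hz₀
  obtain ⟨B, hB⟩ := rmfam_deriv_bound hUo hz₀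
  have hSne : S.Nonempty := ⟨_, mem_image_of_mem _ hf₀⟩
  have hSbdd : BddAbove S := ⟨B, by rintro _ ⟨f, hf, rfl⟩; exact hB f hf⟩
  obtain ⟨u, -, hu, huS⟩ := exists_seq_tendsto_sSup hSne hSbdd
  choose F hFmem hFu using huS
  have hsup_pos : 0 < sSup S := lt_of_lt_of_le hf₀pos (le_csSup hSbdd (mem_image_of_mem _ hf₀))
  set φ : Ultrafilter ℕ := Filter.hyperfilter ℕ with hφ
  have hφle : (φ : Filter ℕ) ≤ atTop := by
    rw [← Nat.cofinite_eq_atTop]
    exact Filter.hyperfilter_le_cofinite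
  have hFd : ∀ n, DifferentiableOn ℂ (F n) U := fun n => (hFmem n).1
  have hFb : ∀ n, ∀ z ∈ U, ‖F n z‖ ≤ 1 := by
    intro n z hz
    have := (hFmem n).2.2.1 hz
    rw [mem_ball, dist_zero_right] at this
    exact this.le
  obtain ⟨f, hlim, hpt⟩ := exists_limit_ultrafilter hUo F hFd hFb φ
  have hfd : DifferentiableOn ℂ f U := hlim.differentiableOn (Eventually.of_forall hFd) hUo
  have hderiv_lim : TendstoLocallyUniformlyOn (deriv ∘ F) (deriv f) φ U :=
    hlim.deriv (Eventually.of_forall hFd) hUo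
  have hd0 : Tendsto (fun n => deriv (F n) z₀) φ (𝓝 (deriv f z₀)) := hderiv_lim.tendsto_at hz₀
  have hnorm : ‖deriv f z₀‖ = sSup S := by
    have h1 : Tendsto (fun n => ‖deriv (F n) z₀‖) φ (𝓝 ‖deriv f z₀‖) := hd0.norm
    have h2 : Tendsto (fun n => ‖deriv (F n) z₀‖) φ (𝓝 (sSup S)) := by
      have : (fun n => ‖deriv (F n) z₀‖) = u := funext hFu
      rw [this]
      exact hu.mono_left hφle
    exact tendsto_nhds_unique h1 h2
  have hd0ne : deriv f z₀ ≠ 0 := by
    intro h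
    rw [h, norm_zero] at hnorm
    linarith
  have hfz₀ : f z₀ = 0 := by
    have h1 := hpt z₀ hz₀
    have h2 : (fun n => F n z₀) = fun _ => (0 : ℂ) := funext (fun n => (hFmem n).2.2.2.2)
    rw [h2] at h1
    exact (tendsto_nhds_unique h1 tendsto_const_nhds)
  have hfle : ∀ z ∈ U, ‖f z‖ ≤ 1 := by
    intro z hz
    exact le_of_tendsto (hpt z hz).norm (Eventually.of_forall (fun n => hFb n z hz))
  -- the derivative of the limit does not vanish
  have hdne : ∀ z ∈ U, deriv f z ≠ 0 := by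
    intro b hb h0
    have := zero_free_limit hUo hUc (h := fun n => deriv (F n)) (H := deriv f)
      (fun n => (hFd n).deriv hUo) (fun n z hz => (hFmem n).2.2.2.1 z hz) hderiv_lim hb h0 z₀ hz₀
    exact hd0ne this
  -- injectivity of the limit
  have hinj : InjOn f U := by
    intro a ha b hb hab
    by_contra hne
    have hdist : 0 < dist b a := dist_pos.mpr (Ne.symm hne)
    obtain ⟨ρ₀, hρ₀, hρ₀'⟩ := Metric.isOpen_iff.mp hUo b hb
    set ρ : ℝ := min ρ₀ (dist b a) with hρdef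
    have hρ : 0 < ρ := lt_min hρ₀ hdist
    have hBU : ball b ρ ⊆ U := (ball_subset_ball (min_le_left _ _)).trans hρ₀'
    have haB : a ∉ ball b ρ := by
      rw [mem_ball, not_lt, dist_comm]
      exact min_le_right _ _
    have hlimB : TendstoLocallyUniformlyOn (fun n z => F n z - F n a) (fun z => f z - f a) φ
        (ball b ρ) := by
      rw [Metric.tendstoLocallyUniformlyOn_iff]
      intro ε hε x hx
      obtain ⟨t, ht, htev⟩ := (Metric.tendstoLocallyUniformlyOn_iff.mp (hlim.mono hBU)) (ε / 2)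
        (by positivity) x hx
      refine ⟨t, ht, ?_⟩
      have hev : ∀ᶠ n in (φ : Filter ℕ), dist (f a) (F n a) < ε / 2 := by
        have := (Metric.tendsto_nhds.mp (hpt a ha)) (ε / 2) (by positivity)
        filter_upwards [this] with n hn
        rwa [dist_comm]
      filter_upwards [htev, hev] with n hn1 hn2
      intro y hy
      have h1 := hn1 y hy
      rw [dist_eq_norm] at h1 hn2 ⊢
      calc ‖f y - f a - (F n y - F n a)‖ = ‖(f y - F n y) - (f a - F n a)‖ := by ring_nf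
        _ ≤ ‖f y - F n y‖ + ‖f a - F n a‖ := norm_sub_le _ _
        _ < ε / 2 + ε / 2 := add_lt_add h1 hn2
        _ = ε := by ring
    have hzero := zero_free_limit isOpen_ball (convex_ball b ρ).isPreconnected
      (h := fun n z => F n z - F n a) (H := fun z => f z - f a)
      (fun n => ((hFd n).mono hBU).sub_const _)
      (fun n z hz h0 => by
        have hzU := hBU hz
        have := (hFmem n).2.1 hzU ha (sub_eq_zero.mp h0)
        rw [this] at hz
        exact haB hz)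
      hlimB (mem_ball_self hρ) (by simp [hab])
    -- so `f` is constant near `b`, contradicting `deriv f b ≠ 0`
    have hconst : f =ᶠ[𝓝 b] fun _ => f a := by
      filter_upwards [ball_mem_nhds b hρ] with z hz
      exact sub_eq_zero.mp (hzero z hz)
    have := hconst.deriv_eq
    rw [deriv_const] at this
    exact hdne b hb this
  -- the limit maps into the open disc
  have hlt : MapsTo f U (ball 0 1) := by
    intro z₁ hz₁
    rw [mem_ball, dist_zero_right]
    by_contra hcon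
    have hge : 1 ≤ ‖f z₁‖ := not_lt.mp hcon
    have hmax : IsMaxOn (norm ∘ f) U z₁ := by
      intro z hz
      show ‖f z‖ ≤ ‖f z₁‖
      exact (hfle z hz).trans hge
    have hconst := Complex.eqOn_of_isPreconnected_of_isMaxOn_norm hUc hUo hfd hz₁ hmax
    have hev : f =ᶠ[𝓝 z₀] fun _ => f z₁ := by
      filter_upwards [hUo.mem_nhds hz₀] with z hz
      exact hconst hz
    have := hev.deriv_eq
    rw [deriv_const] at this
    exact hd0ne this
  refine ⟨f, ⟨hfd, hinj, hlt, hdne, hfz₀⟩, ?_⟩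
  intro g hg
  rw [hnorm]
  exact le_csSup hSbdd (mem_image_of_mem _ hg)

theorem one_sub_conj_mul_self (a : ℂ) :
    1 - (starRingEnd ℂ) a * a = ((1 - ‖a‖ ^ 2 : ℝ) : ℂ) := by
  rw [Complex.conj_mul']
  push_cast
  ring

/-- The square-root trick: an extremal map is onto the disc. -/
theorem maximizer_surjOn {U : Set ℂ} (hUo : IsOpen U) (hUsc : IsSimplyConnected U)
    {z₀ : ℂ} (hz₀ : z₀ ∈ U) {f : ℂ → ℂ} (hf : f ∈ RMFam U z₀)
    (hmax : ∀ g ∈ RMFam U z₀, ‖deriv g z₀‖ ≤ ‖deriv f z₀‖) : SurjOn f U (ball 0 1) := by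
  obtain ⟨hfd, hfinj, hfm, hfdne, hfz₀⟩ := hf
  intro w₀ hw₀
  by_contra hcon
  have hw₀' : ‖w₀‖ < 1 := by rwa [mem_ball, dist_zero_right] at hw₀
  have hfn : ∀ z ∈ U, ‖f z‖ < 1 := by
    intro z hz
    have := hfm hz
    rwa [mem_ball, dist_zero_right] at this
  -- first Moebius map
  set g₁ : ℂ → ℂ := fun z => mob w₀ (f z) with hg₁
  have hg₁d : ∀ z ∈ U, HasDerivAt g₁
      ((1 - (starRingEnd ℂ) w₀ * w₀) / (1 - (starRingEnd ℂ) w₀ * f z) ^ 2 * deriv f z) z := by
    intro z hz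
    have h1 := mob_hasDerivAt hw₀' (hfn z hz)
    have h2 : HasDerivAt f (deriv f z) z := (hfd.differentiableAt (hUo.mem_nhds hz)).hasDerivAt
    exact h1.comp z h2
  have hg₁diff : DifferentiableOn ℂ g₁ U :=
    fun z hz => (hg₁d z hz).differentiableAt.differentiableWithinAt
  have hg₁0 : ∀ z ∈ U, g₁ z ≠ 0 := by
    intro z hz h0
    simp only [hg₁, mob] at h0
    rcases div_eq_zero_iff.mp h0 with h | h
    · apply hcon
      exact ⟨z, hz, sub_eq_zero.mp h⟩
    · exact mob_denom_ne hw₀' (hfn z hz) h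
  have hg₁n : ∀ z ∈ U, ‖g₁ z‖ < 1 := fun z hz => mob_norm_lt hw₀' (hfn z hz)
  obtain ⟨k, hk, hkd⟩ := exists_sqrt hUo hUsc hg₁diff hg₁0
  have hkn : ∀ z ∈ U, ‖k z‖ < 1 := by
    intro z hz
    have h1 : ‖k z‖ ^ 2 < 1 := by
      rw [← norm_pow, hk z]
      exact hg₁n z hz
    have h2 := norm_nonneg (k z)
    by_contra h3
    have h4 := not_lt.mp h3
    nlinarith
  have hk0 : ∀ z ∈ U, k z ≠ 0 := by
    intro z hz h0
    have := hk z
    rw [h0] at this
    simp at this
    exact hg₁0 z hz this.symm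
  have hkinj : InjOn k U := by
    intro z hz w hw h
    have h1 : g₁ z = g₁ w := by rw [← hk z, ← hk w, h]
    have h2 : f z = f w := mob_injOn hw₀' (hfm hz) (hfm hw) h1
    exact hfinj hz hw h2
  set k₀ : ℂ := k z₀ with hk₀
  have hk₀n : ‖k₀‖ < 1 := hkn z₀ hz₀
  set g : ℂ → ℂ := fun z => mob k₀ (k z) with hg
  have hgd : ∀ z ∈ U, HasDerivAt g
      ((1 - (starRingEnd ℂ) k₀ * k₀) / (1 - (starRingEnd ℂ) k₀ * k z) ^ 2 *
        (deriv g₁ z / (2 * k z))) z := by
    intro z hz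
    have h1 := mob_hasDerivAt hk₀n (hkn z hz)
    exact h1.comp z (hkd z hz)
  have hone : ∀ a : ℂ, ‖a‖ < 1 → (1 - (starRingEnd ℂ) a * a) ≠ 0 := by
    intro a ha
    rw [one_sub_conj_mul_self]
    have : (0:ℝ) < 1 - ‖a‖ ^ 2 := by
      have := norm_nonneg a
      nlinarith
    exact_mod_cast this.ne'
  have hgmem : g ∈ RMFam U z₀ := by
    refine ⟨fun z hz => (hgd z hz).differentiableAt.differentiableWithinAt, ?_, ?_, ?_, ?_⟩
    · intro z hz w hw h
      have hkz : k z ∈ ball (0:ℂ) 1 := by rw [mem_ball, dist_zero_right]; exact hkn z hz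
      have hkw : k w ∈ ball (0:ℂ) 1 := by rw [mem_ball, dist_zero_right]; exact hkn w hw
      exact hkinj hz hw (mob_injOn hk₀n hkz hkw h)
    · intro z hz
      rw [mem_ball, dist_zero_right]
      exact mob_norm_lt hk₀n (hkn z hz)
    · intro z hz
      rw [(hgd z hz).deriv]
      apply mul_ne_zero
      · exact div_ne_zero (hone k₀ hk₀n) (pow_ne_zero 2 (mob_denom_ne hk₀n (hkn z hz)))
      · apply div_ne_zero
        · rw [(hg₁d z hz).deriv]
          apply mul_ne_zero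
          · exact div_ne_zero (hone w₀ hw₀') (pow_ne_zero 2 (mob_denom_ne hw₀' (hfn z hz)))
          · exact hfdne z hz
        · exact mul_ne_zero two_ne_zero (hk0 z hz)
    · simp only [hg]
      exact mob_self k₀
  have hle := hmax g hgmem
  -- compute the derivative of `g` at `z₀`
  set t : ℝ := ‖k₀‖ with ht
  have ht0 : 0 < t := norm_pos_iff.mpr (hk0 z₀ hz₀)
  have ht1 : t < 1 := hk₀n
  have hw₀t : ‖w₀‖ = t ^ 2 := by
    have h1 : k₀ ^ 2 = -w₀ := by
      rw [hk₀, hk z₀]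
      simp only [hg₁]
      rw [hfz₀, mob_zero]
    have h2 : ‖k₀ ^ 2‖ = ‖w₀‖ := by rw [h1, norm_neg]
    rw [norm_pow] at h2
    exact h2.symm
  have hd1 : deriv g₁ z₀ = (1 - (starRingEnd ℂ) w₀ * w₀) * deriv f z₀ := by
    rw [(hg₁d z₀ hz₀).deriv, hfz₀]
    simp
  have hd2 : deriv g z₀ = (1 - (starRingEnd ℂ) k₀ * k₀) / (1 - (starRingEnd ℂ) k₀ * k₀) ^ 2 *
      (((1 - (starRingEnd ℂ) w₀ * w₀) * deriv f z₀) / (2 * k₀)) := by
    rw [(hgd z₀ hz₀).deriv, hd1]
  have hn1 : ‖(1 - (starRingEnd ℂ) k₀ * k₀)‖ = 1 - t ^ 2 := by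
    rw [one_sub_conj_mul_self, Complex.norm_real, Real.norm_of_nonneg]
    nlinarith
  have hn2 : ‖(1 - (starRingEnd ℂ) w₀ * w₀)‖ = 1 - t ^ 4 := by
    rw [one_sub_conj_mul_self, Complex.norm_real, Real.norm_of_nonneg, hw₀t]
    · ring
    · rw [hw₀t]
      have : t ^ 2 < 1 := by nlinarith
      nlinarith
  have hnorm : ‖deriv g z₀‖ = (1 - t ^ 2) / (1 - t ^ 2) ^ 2 * ((1 - t ^ 4) * ‖deriv f z₀‖ / (2 * t)) := by
    rw [hd2, norm_mul, norm_div, norm_pow, norm_div, norm_mul, norm_mul, hn1, hn2]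
    simp [ht]
  set d : ℝ := ‖deriv f z₀‖ with hd
  have hdpos : 0 < d := norm_pos_iff.mpr (hfdne z₀ hz₀)
  have hlt : d < ‖deriv g z₀‖ := by
    rw [hnorm]
    have h1 : 0 < 1 - t ^ 2 := by nlinarith
    have h2 : (1 - t ^ 2) / (1 - t ^ 2) ^ 2 * ((1 - t ^ 4) * d / (2 * t)) = (1 + t ^ 2) * d / (2 * t) := by
      field_simp
      ring
    rw [h2, lt_div_iff₀ (by positivity)]
    nlinarith [sq_pos_of_pos (sub_pos.mpr ht1)]
  linarith

/-- Holomorphic inverse of an injective holomorphic map with nonvanishing derivative. -/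
theorem exists_holo_inverse {U : Set ℂ} (hUo : IsOpen U) {f : ℂ → ℂ}
    (hfd : DifferentiableOn ℂ f U) (hinj : InjOn f U) (hdne : ∀ z ∈ U, deriv f z ≠ 0) :
    ∃ g : ℂ → ℂ, DifferentiableOn ℂ g (f '' U) ∧ MapsTo g (f '' U) U ∧
      (∀ z ∈ U, g (f z) = z) ∧ ∀ w ∈ f '' U, f (g w) = w := by
  classical
  refine ⟨Function.invFunOn f U, ?_, ?_, ?_, ?_⟩
  · rintro w ⟨z, hz, rfl⟩
    have hs : HasStrictDerivAt f (deriv f z) z :=
      (hfd.analyticAt (hUo.mem_nhds hz)).hasStrictDerivAt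
    have hev : ∀ᶠ x in 𝓝 z, Function.invFunOn f U (f x) = x := by
      filter_upwards [hUo.mem_nhds hz] with x hx
      exact hinj.leftInvOn_invFunOn hx
    exact (hs.to_local_left_inverse (hdne z hz) hev).hasDerivAt.differentiableAt.differentiableWithinAt
  · rintro w hw
    exact Function.invFunOn_mem hw
  · intro z hz
    exact hinj.leftInvOn_invFunOn hz
  · intro w hw
    exact Function.invFunOn_eq hw


/-- The Riemann mapping theorem for bounded simply connected open subsets of the plane. -/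
theorem riemann_mapping_bounded {U : Set ℂ} (hUo : IsOpen U) (hUsc : IsSimplyConnected U)
    (hUb : Bornology.IsBounded U) :
    ∃ f g : ℂ → ℂ, DifferentiableOn ℂ f U ∧ DifferentiableOn ℂ g (ball 0 1) ∧
      MapsTo f U (ball 0 1) ∧ MapsTo g (ball 0 1) U ∧
      (∀ z ∈ U, g (f z) = z) ∧ ∀ w ∈ ball (0 : ℂ) 1, f (g w) = w := by
  obtain ⟨z₀, hz₀⟩ := hUsc.nonempty
  have hUc : IsPreconnected U := hUsc.isPathConnected.isConnected.isPreconnected
  obtain ⟨f, hf, hmax⟩ := exists_maximizer hUo hUc hUb hz₀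
  have hsurj := maximizer_surjOn hUo hUsc hz₀ hf hmax
  obtain ⟨hfd, hfinj, hfm, hfdne, hfz₀⟩ := hf
  have himg : f '' U = ball 0 1 := Subset.antisymm hfm.image_subset hsurj
  obtain ⟨g, hgd, hgm, hgf, hfg⟩ := exists_holo_inverse hUo hfd hfinj hfdne
  rw [himg] at hgd hgm hfg
  exact ⟨f, g, hfd, hgd, hfm, hgm, hgf, hfg⟩

end Vale.Agent.Lib.P274
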