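import Mathlib
open Complex Metric Set Filter Topology

namespace Vale.Agent.Lib.P274

theorem subset_of_disjoint_frontier {A T : Set ℂ} (hA : IsPreconnected A) (hT : IsOpen T)
    (hAT : ∀ z ∈ A, z ∉ frontier T) (hne : (A ∩ T).Nonempty) : A ⊆ T := by
  have hsub : A ⊆ T ∪ (closure T)ᶜ := by
    intro z hz
    by_cases hzT : z ∈ T
    · exact Or.inl hzT
    · right
      intro hcl
      apply hAT z hz
      rw [hT.frontier_eq]
      exact ⟨hcl, hzT⟩
  exact hA.subset_left_of_subset_union hT isClosed_closure.isOpen_compl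
    (disjoint_left.mpr (fun z hz hz' => hz' (subset_closure hz))) hsub hne

theorem continuous_complex_mk {X : Type*} [TopologicalSpace X] {f g : X → ℝ} (hf : Continuous f)
    (hg : Continuous g) : Continuous (fun p => (⟨f p, g p⟩ : ℂ)) := by
  have : (fun p => (⟨f p, g p⟩ : ℂ)) = fun p => ((f p : ℝ) : ℂ) + ((g p : ℝ) : ℂ) * Complex.I := by
    funext p; exact Complex.mk_eq_add_mul_I _ _
  rw [this]
  fun_prop

/-- A planar set that can be pushed vertically onto a horizontal level and then horizontally to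
a point, inside itself, is simply connected. -/
theorem simply_connected_of_push {A : Set ℂ} (x₀ y₁ : ℝ) (hne : A.Nonempty)
    (h1 : ∀ z ∈ A, ∀ s ∈ Icc (0:ℝ) 1, (⟨z.re, (1 - s) * z.im + s * y₁⟩ : ℂ) ∈ A)
    (h2 : ∀ z ∈ A, ∀ s ∈ Icc (0:ℝ) 1, (⟨(1 - s) * z.re + s * x₀, y₁⟩ : ℂ) ∈ A) :
    IsSimplyConnected A := by
  obtain ⟨a, ha⟩ := hne
  have hr : ∀ z ∈ A, (⟨z.re, y₁⟩ : ℂ) ∈ A := by
    intro z hz
    have := h1 z hz 1 ⟨zero_le_one, le_rfl⟩
    simpa using this
  have hp₀ : (⟨x₀, y₁⟩ : ℂ) ∈ A := by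
    have := h2 a ha 1 ⟨zero_le_one, le_rfl⟩
    simpa using this
  let r : C(A, A) :=
    { toFun := fun z => ⟨⟨(z : ℂ).re, y₁⟩, hr z z.2⟩
      continuous_toFun := by
        apply Continuous.subtype_mk
        exact continuous_complex_mk (Complex.continuous_re.comp continuous_subtype_val)
          continuous_const }
  have H1 : ContinuousMap.Homotopic (ContinuousMap.id A) r := by
    refine ⟨{ toFun := fun p => ⟨⟨(p.2 : ℂ).re, (1 - (p.1 : ℝ)) * (p.2 : ℂ).im + (p.1 : ℝ) * y₁⟩,
                h1 _ p.2.2 _ p.1.2⟩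
              continuous_toFun := ?_
              map_zero_left := ?_
              map_one_left := ?_ }⟩
    · apply Continuous.subtype_mk
      apply continuous_complex_mk
      · fun_prop
      · fun_prop
    · intro z
      apply Subtype.ext
      apply Complex.ext <;> simp
    · intro z
      apply Subtype.ext
      apply Complex.ext <;> simp [r]
  have H2 : ContinuousMap.Homotopic r (ContinuousMap.const A ⟨⟨x₀, y₁⟩, hp₀⟩) := by
    refine ⟨{ toFun := fun p => ⟨⟨(1 - (p.1 : ℝ)) * (p.2 : ℂ).re + (p.1 : ℝ) * x₀, y₁⟩,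
                h2 _ p.2.2 _ p.1.2⟩
              continuous_toFun := ?_
              map_zero_left := ?_
              map_one_left := ?_ }⟩
    · apply Continuous.subtype_mk
      apply continuous_complex_mk
      · fun_prop
      · fun_prop
    · intro z
      apply Subtype.ext
      apply Complex.ext <;> simp [r]
    · intro z
      apply Subtype.ext
      apply Complex.ext <;> simp
  have : ContractibleSpace A := (contractible_iff_id_nullhomotopic A).mpr ⟨_, H1.trans H2⟩
  exact (inferInstance : SimplyConnectedSpace A)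

/-- The boundary of the exterior of an open set is part of the boundary of the set. -/
theorem frontier_ext_subset {U : Set ℂ} (hUo : IsOpen U) :
    frontier (closure U)ᶜ ⊆ frontier U := by
  intro z hz
  have hO : IsOpen (closure U)ᶜ := isClosed_closure.isOpen_compl
  rw [hO.frontier_eq] at hz
  obtain ⟨hz1, hz2⟩ := hz
  have hzc : z ∈ closure U := not_not.mp hz2
  rw [hUo.frontier_eq]
  refine ⟨hzc, fun hzU => ?_⟩
  obtain ⟨w, hw1, hw2⟩ := mem_closure_iff.mp hz1 U hUo hzU
  exact hw2 (subset_closure hw1)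

theorem frontier_ext_subset_closure {U : Set ℂ} :
    frontier (closure U)ᶜ ⊆ closure U := by
  intro z hz
  have hO : IsOpen (closure U)ᶜ := isClosed_closure.isOpen_compl
  rw [hO.frontier_eq] at hz
  exact not_not.mp hz.2

/-- Every vertical line through a small disc inside a bounded open set meets the boundary of the
exterior of the set. -/
theorem exists_ext_frontier_on_line {U : Set ℂ} (hUb : Bornology.IsBounded U) {u : ℂ} {r : ℝ}
    (hball : ball u r ⊆ U) {x : ℝ} (hx : |x - u.re| < r) :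
    ∃ z ∈ frontier (closure U)ᶜ, z.re = x := by
  set T : Set ℝ := {t | (⟨x, t⟩ : ℂ) ∈ closure U} with hT
  have hTne : u.im ∈ T := by
    apply subset_closure
    apply hball
    have hd : dist (⟨x, u.im⟩ : ℂ) u = dist x u.re := Complex.dist_of_im_eq rfl
    rw [mem_ball, hd, Real.dist_eq]
    exact hx
  have hTbdd : BddAbove T := by
    obtain ⟨R, hR⟩ := hUb.closure.subset_closedBall 0
    refine ⟨R, fun t ht => ?_⟩
    have h1 := hR ht
    rw [mem_closedBall, dist_zero_right] at h1
    have h2 : |t| ≤ ‖(⟨x, t⟩ : ℂ)‖ := Complex.abs_im_le_norm ⟨x, t⟩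
    exact (le_abs_self t).trans (h2.trans h1)
  have hTcl : IsClosed T :=
    isClosed_closure.preimage (continuous_complex_mk continuous_const continuous_id)
  set t₀ := sSup T with ht₀def
  have ht₀ : t₀ ∈ T := hTcl.csSup_mem ⟨_, hTne⟩ hTbdd
  refine ⟨⟨x, t₀⟩, ?_, rfl⟩
  have hO : IsOpen (closure U)ᶜ := isClosed_closure.isOpen_compl
  rw [hO.frontier_eq]
  refine ⟨?_, fun h => h ht₀⟩
  rw [Metric.mem_closure_iff]
  intro ε hε
  refine ⟨⟨x, t₀ + ε / 2⟩, ?_, ?_⟩
  · intro h
    have : t₀ + ε / 2 ≤ t₀ := le_csSup hTbdd h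
    linarith
  · have hd : dist (⟨x, t₀⟩ : ℂ) ⟨x, t₀ + ε / 2⟩ = dist t₀ (t₀ + ε / 2) :=
      Complex.dist_of_re_eq rfl
    rw [hd, Real.dist_eq]
    simp only [sub_add_cancel_left, abs_neg]
    rw [abs_of_pos (by positivity)]
    linarith

/-- Local structure near a boundary point of the exterior `O` of `U` at which the boundary is
the zero set of a function that is strictly increasing in the vertical direction: `U` is one
side of the graph, and small loops of `U` contract in `U`. -/
theorem tame_of_local_graph {U O : Set ℂ} (hUo : IsOpen U) (hOo : IsOpen O) (hUO : Disjoint U O)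
    (hSU : frontier O ⊆ frontier U) (hScl : frontier O ⊆ closure U)
    {F : ℂ → ℝ} {c : ℂ} (hc : c ∈ frontier O) {δ η : ℝ} (hδ : 0 < δ)
    (hη : 0 < η)
    (hmono : ∀ x y y' : ℝ, |x - c.re| < δ → |y - c.im| < η → |y' - c.im| < η → y < y' →
      F ⟨x, y⟩ < F ⟨x, y'⟩)
    (hup : ∀ x : ℝ, |x - c.re| < δ → 0 < F ⟨x, c.im + η / 2⟩)
    (hdown : ∀ x : ℝ, |x - c.re| < δ → F ⟨x, c.im - η / 2⟩ < 0)
    (hS0 : ∀ z ∈ frontier O, |z.re - c.re| < δ → |z.im - c.im| < η → F z = 0)
    (hZ : (∀ z : ℂ, |z.re - c.re| < δ → |z.im - c.im| < η → F z = 0 → z ∈ frontier O) →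
      ∀ z ∈ frontier U, |z.re - c.re| < δ → |z.im - c.im| < η → F z = 0) :
    ∀ (x : ℂ) (p : Path x x),
      (∀ t, p t ∈ U ∧ |(p t).re - c.re| < δ ∧ |(p t).im - c.im| < η) →
      ∃ H : p.Homotopy (Path.refl x), ∀ t, H t ∈ U := by
  -- the two sides
  set A : ℝ → Set ℂ := fun σ => {z | |z.re - c.re| < δ ∧ |z.im - c.im| < η ∧ 0 < σ * F z}
    with hAdef
  -- the box is an open neighbourhood of `c`
  have hNopen : IsOpen {z : ℂ | |z.re - c.re| < δ ∧ |z.im - c.im| < η} := by
    have h1 : Continuous fun z : ℂ => |z.re - c.re| :=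
      (Complex.continuous_re.sub continuous_const).abs
    have h2 : Continuous fun z : ℂ => |z.im - c.im| :=
      (Complex.continuous_im.sub continuous_const).abs
    exact (isOpen_lt h1 continuous_const).inter (isOpen_lt h2 continuous_const)
  have hcN : c ∈ {z : ℂ | |z.re - c.re| < δ ∧ |z.im - c.im| < η} := by
    constructor <;> simpa
  -- signed monotonicity and levels
  have hmonoσ : ∀ σ : ℝ, (σ = 1 ∨ σ = -1) → ∀ x y y' : ℝ, |x - c.re| < δ → |y - c.im| < η →
      |y' - c.im| < η → σ * y < σ * y' → σ * F ⟨x, y⟩ < σ * F ⟨x, y'⟩ := by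
    intro σ hσ x y y' hx hy hy' hlt
    rcases hσ with rfl | rfl
    · have := hmono x y y' hx hy hy' (by linarith)
      linarith
    · have := hmono x y' y hx hy' hy (by linarith)
      linarith
  have hlevel : ∀ σ : ℝ, (σ = 1 ∨ σ = -1) → ∀ x : ℝ, |x - c.re| < δ →
      0 < σ * F ⟨x, c.im + σ * (η / 2)⟩ := by
    intro σ hσ x hx
    rcases hσ with rfl | rfl
    · have := hup x hx
      simpa using this
    · have := hdown x hx
      have e : c.im + -1 * (η / 2) = c.im - η / 2 := by ring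
      rw [e]
      linarith
  have hlevel_mem : ∀ σ : ℝ, (σ = 1 ∨ σ = -1) → |c.im + σ * (η / 2) - c.im| < η := by
    intro σ hσ
    rcases hσ with rfl | rfl
    · rw [abs_lt]; constructor <;> linarith
    · rw [abs_lt]; constructor <;> linarith
  -- each side is simply connected
  have hsc : ∀ σ : ℝ, (σ = 1 ∨ σ = -1) → IsSimplyConnected (A σ) := by
    intro σ hσ
    have hσ0 : σ ≠ 0 := by rcases hσ with rfl | rfl <;> norm_num
    apply simply_connected_of_push c.re (c.im + σ * (η / 2))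
    · refine ⟨⟨c.re, c.im + σ * (η / 2)⟩, ?_, hlevel_mem σ hσ, hlevel σ hσ c.re (by simpa)⟩
      simpa
    · rintro z ⟨hz1, hz2, hz3⟩ s ⟨hs0, hs1⟩
      have hw2 : |(1 - s) * z.im + s * (c.im + σ * (η / 2)) - c.im| < η := by
        have hconv : Convex ℝ (Ioo (c.im - η) (c.im + η)) := convex_Ioo (c.im - η) (c.im + η)
        have ha : z.im ∈ Ioo (c.im - η) (c.im + η) := by
          rw [abs_lt] at hz2; constructor <;> linarith
        have hb : c.im + σ * (η / 2) ∈ Ioo (c.im - η) (c.im + η) := by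
          have := hlevel_mem σ hσ
          rw [abs_lt] at this; constructor <;> linarith
        have := hconv ha hb (sub_nonneg.mpr hs1) hs0 (by ring)
        simp only [smul_eq_mul] at this
        rw [abs_lt]
        constructor <;> linarith [this.1, this.2]
      refine ⟨hz1, hw2, ?_⟩
      show 0 < σ * F ⟨z.re, (1 - s) * z.im + s * (c.im + σ * (η / 2))⟩
      have hz3' : 0 < σ * F ⟨z.re, z.im⟩ := hz3
      have hlev := hlevel σ hσ z.re hz1
      by_cases hcase : σ * z.im ≤ σ * (c.im + σ * (η / 2))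
      · have hge : σ * z.im ≤ σ * ((1 - s) * z.im + s * (c.im + σ * (η / 2))) := by
          nlinarith
        rcases eq_or_lt_of_le hge with heq | hlt
        · have : z.im = (1 - s) * z.im + s * (c.im + σ * (η / 2)) :=
            mul_left_cancel₀ hσ0 heq
          rw [← this]
          exact hz3'
        · exact hz3'.trans (hmonoσ σ hσ z.re _ _ hz1 hz2 hw2 hlt)
      · have hcase' := not_le.mp hcase
        have hge : σ * (c.im + σ * (η / 2)) ≤ σ * ((1 - s) * z.im + s * (c.im + σ * (η / 2))) := by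
          nlinarith
        rcases eq_or_lt_of_le hge with heq | hlt
        · have : c.im + σ * (η / 2) = (1 - s) * z.im + s * (c.im + σ * (η / 2)) :=
            mul_left_cancel₀ hσ0 heq
          rw [← this]
          exact hlev
        · exact hlev.trans (hmonoσ σ hσ z.re _ _ hz1 (hlevel_mem σ hσ) hw2 hlt)
    · rintro z ⟨hz1, hz2, hz3⟩ s ⟨hs0, hs1⟩
      have hw1 : |(1 - s) * z.re + s * c.re - c.re| < δ := by
        have e : (1 - s) * z.re + s * c.re - c.re = (1 - s) * (z.re - c.re) := by ring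
        rw [e, abs_mul, abs_of_nonneg (sub_nonneg.mpr hs1)]
        have := abs_nonneg (z.re - c.re)
        nlinarith
      exact ⟨hw1, hlevel_mem σ hσ, hlevel σ hσ _ hw1⟩
  have hpre : ∀ σ : ℝ, (σ = 1 ∨ σ = -1) → IsPreconnected (A σ) :=
    fun σ hσ => (hsc σ hσ).isPathConnected.isConnected.isPreconnected
  -- zeros of `F` in the box are limits of both sides
  have hcl : ∀ σ : ℝ, (σ = 1 ∨ σ = -1) → ∀ z : ℂ, |z.re - c.re| < δ → |z.im - c.im| < η →
      F z = 0 → z ∈ closure (A σ) := by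
    intro σ hσ z hz1 hz2 hz0
    have hσ2 : σ * σ = 1 := by rcases hσ with rfl | rfl <;> norm_num
    have hσabs : |σ| = 1 := by rcases hσ with rfl | rfl <;> simp
    rw [Metric.mem_closure_iff]
    intro ε hε
    set t : ℝ := min (ε / 2) ((η - |z.im - c.im|) / 2) with ht
    have ht0 : 0 < t := lt_min (by positivity) (by linarith)
    have ht1 : t ≤ ε / 2 := min_le_left _ _
    have ht2 : t ≤ (η - |z.im - c.im|) / 2 := min_le_right _ _
    have hw2 : |z.im + σ * t - c.im| < η := by
      have e : z.im + σ * t - c.im = (z.im - c.im) + σ * t := by ring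
      rw [e]
      calc |(z.im - c.im) + σ * t| ≤ |z.im - c.im| + |σ * t| := abs_add_le _ _
        _ = |z.im - c.im| + t := by rw [abs_mul, hσabs, one_mul, abs_of_pos ht0]
        _ < η := by linarith
    refine ⟨⟨z.re, z.im + σ * t⟩, ⟨hz1, hw2, ?_⟩, ?_⟩
    · show 0 < σ * F ⟨z.re, z.im + σ * t⟩
      have h1 : σ * z.im < σ * (z.im + σ * t) := by nlinarith
      have h2 := hmonoσ σ hσ z.re z.im (z.im + σ * t) hz1 hz2 hw2 h1
      have h3 : F ⟨z.re, z.im⟩ = 0 := hz0
      rw [h3, mul_zero] at h2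
      exact h2
    · have hd : dist z (⟨z.re, z.im + σ * t⟩ : ℂ) = dist z.im (z.im + σ * t) :=
        Complex.dist_of_re_eq rfl
      rw [hd, Real.dist_eq]
      simp only [sub_add_cancel_left, abs_neg]
      rw [abs_mul, hσabs, one_mul, abs_of_pos ht0]
      linarith
  -- the sides avoid the boundary of `O`
  have hfr : ∀ σ : ℝ, ∀ z ∈ A σ, z ∉ frontier O := by
    rintro σ z ⟨hz1, hz2, hz3⟩ hzS
    rw [hS0 z hzS hz1 hz2, mul_zero] at hz3
    exact lt_irrefl _ hz3
  -- trichotomy
  have htri : ∀ σ : ℝ, (σ = 1 ∨ σ = -1) → ∀ z : ℂ, |z.re - c.re| < δ → |z.im - c.im| < η →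
      z ∈ A σ ∨ z ∈ A (-σ) ∨ F z = 0 := by
    intro σ hσ z hz1 hz2
    rcases lt_trichotomy (σ * F z) 0 with h | h | h
    · right; left
      exact ⟨hz1, hz2, by linarith⟩
    · right; right
      rcases mul_eq_zero.mp h with h' | h'
      · rcases hσ with rfl | rfl <;> norm_num at h'
      · exact h'
    · left
      exact ⟨hz1, hz2, h⟩
  have hneg : ∀ σ : ℝ, (σ = 1 ∨ σ = -1) → (-σ = 1 ∨ -σ = -1) := by
    intro σ hσ
    rcases hσ with rfl | rfl
    · right; rfl
    · left; norm_num
  -- the main argument, once the side lying in `O` is known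
  have key : ∀ σ : ℝ, (σ = 1 ∨ σ = -1) → A σ ⊆ O → ∀ (x : ℂ) (p : Path x x),
      (∀ t, p t ∈ U ∧ |(p t).re - c.re| < δ ∧ |(p t).im - c.im| < η) →
      ∃ H : p.Homotopy (Path.refl x), ∀ t, H t ∈ U := by
    intro σ hσ hside
    have hτ := hneg σ hσ
    -- a point of `U` in the box lies on the other side
    obtain ⟨u, huN, huU⟩ : ∃ u, u ∈ {z : ℂ | |z.re - c.re| < δ ∧ |z.im - c.im| < η} ∧ u ∈ U :=
      mem_closure_iff.mp (hScl hc) _ hNopen hcN
    have huτ : u ∈ A (-σ) := by
      rcases htri σ hσ u huN.1 huN.2 with h | h | h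
      · exact absurd (hside h) (disjoint_left.mp hUO huU)
      · exact h
      · exfalso
        obtain ⟨w, hwU, hwA⟩ := mem_closure_iff.mp (hcl σ hσ u huN.1 huN.2 h) U hUo huU
        exact disjoint_left.mp hUO hwU (hside hwA)
    have hτO : ∀ z ∈ A (-σ), z ∉ O := by
      intro z hz hzO
      have := subset_of_disjoint_frontier (hpre (-σ) hτ) hOo (hfr (-σ)) ⟨z, hz, hzO⟩
      exact disjoint_left.mp hUO huU (this huτ)
    -- zeros of `F` in the box lie on the boundary of `O`
    have harc : ∀ z : ℂ, |z.re - c.re| < δ → |z.im - c.im| < η → F z = 0 → z ∈ frontier O := by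
      intro z hz1 hz2 hz0
      rw [hOo.frontier_eq]
      refine ⟨closure_mono hside (hcl σ hσ z hz1 hz2 hz0), fun hzO => ?_⟩
      obtain ⟨w, hwO, hwA⟩ := mem_closure_iff.mp (hcl (-σ) hτ z hz1 hz2 hz0) O hOo hzO
      exact hτO w hwA hwO
    have hZ' := hZ harc
    have hτU : A (-σ) ⊆ U := by
      apply subset_of_disjoint_frontier (hpre (-σ) hτ) hUo _ ⟨u, huτ, huU⟩
      rintro z ⟨hz1, hz2, hz3⟩ hzfr
      rw [hZ' z hzfr hz1 hz2, mul_zero] at hz3
      exact lt_irrefl _ hz3
    intro x p hp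
    have hpA : ∀ t, p t ∈ A (-σ) := by
      intro t
      obtain ⟨h1, h2, h3⟩ := hp t
      rcases htri σ hσ (p t) h2 h3 with h | h | h
      · exact absurd (hside h) (disjoint_left.mp hUO h1)
      · exact h
      · exfalso
        have hfrU := hSU (harc (p t) h2 h3 h)
        rw [hUo.frontier_eq] at hfrU
        exact hfrU.2 h1
    have hscτ := hsc (-σ) hτ
    rw [isSimplyConnected_iff_exists_homotopy_refl_forall_mem] at hscτ
    obtain ⟨H, hH⟩ := hscτ.2 x p hpA
    exact ⟨H, fun t => hτU (hH t)⟩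
  -- find the side lying in `O`
  obtain ⟨w, hwN, hwO⟩ : ∃ w, w ∈ {z : ℂ | |z.re - c.re| < δ ∧ |z.im - c.im| < η} ∧ w ∈ O :=
    mem_closure_iff.mp (frontier_subset_closure hc) _ hNopen hcN
  have h1 : (1 : ℝ) = 1 ∨ (1 : ℝ) = -1 := Or.inl rfl
  rcases htri 1 h1 w hwN.1 hwN.2 with h | h | h
  · exact key 1 h1 (subset_of_disjoint_frontier (hpre 1 h1) hOo (hfr 1) ⟨w, h, hwO⟩)
  · exact key (-1) (Or.inr rfl)
      (subset_of_disjoint_frontier (hpre (-1) (Or.inr rfl)) hOo (hfr (-1)) ⟨w, h, hwO⟩)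
  · obtain ⟨w', hw'O, hw'A⟩ := mem_closure_iff.mp (hcl 1 h1 w hwN.1 hwN.2 h) O hOo hwO
    exact key 1 h1 (subset_of_disjoint_frontier (hpre 1 h1) hOo (hfr 1) ⟨w', hw'A, hw'O⟩)

end Vale.Agent.Lib.P274
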