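import Vale.Agent.Lib.P274.SemiPoly
import Vale.Agent.Lib.P274.SemiTopo

/-!
# Planar open sets defined by polynomial sign conditions are tame near some boundary point

The boundary of the exterior of a bounded open set `U` is contained in the zero set of a nonzero
real polynomial.  At a point of that boundary where the order of vanishing in the vertical
direction is minimal, the zero set is locally a graph, `U` is exactly one side of it, and so
small loops of `U` near that point contract in `U`.
-/

open Complex Metric Set Filter Topology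

namespace Vale.Agent.Lib.P274

theorem bev_iterate_derivative_neg (P : Polynomial (Polynomial ℝ)) (k : ℕ) (z : ℂ) :
    bev (Polynomial.derivative^[k] (-P)) z = -bev (Polynomial.derivative^[k] P) z := by
  rw [Polynomial.iterate_derivative_neg, bev_neg]

/-- Tameness at a boundary point of the exterior where a vertical derivative of the defining
polynomial is positive and all lower vertical derivatives vanish along that boundary. -/
theorem tame_of_pos {U : Set ℂ} (hUo : IsOpen U) (Q : Polynomial (Polynomial ℝ)) (k' : ℕ) {c : ℂ}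
    (hcS : c ∈ frontier (closure U)ᶜ)
    (hQ : ∀ z ∈ frontier U, bev Q z = 0)
    (hmin : ∀ i ≤ k', ∀ c' ∈ frontier (closure U)ᶜ, bev (Polynomial.derivative^[i] Q) c' = 0)
    (hpos : 0 < bev (Polynomial.derivative^[k' + 1] Q) c) :
    ∃ ε > 0, ∀ (x : ℂ) (p : Path x x),
      (∀ t, p t ∈ U ∩ ball c ε) → ∃ H : p.Homotopy (Path.refl x), ∀ t, H t ∈ U := by
  set O : Set ℂ := (closure U)ᶜ with hOdef
  have hOo : IsOpen O := isClosed_closure.isOpen_compl
  have hUO : Disjoint U O := disjoint_left.mpr (fun z hz hzO => hzO (subset_closure hz))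
  have hSU : frontier O ⊆ frontier U := frontier_ext_subset hUo
  have hScl : frontier O ⊆ closure U := frontier_ext_subset_closure
  set F : ℂ → ℝ := bev (Polynomial.derivative^[k'] Q) with hFdef
  set D : ℂ → ℝ := bev (Polynomial.derivative^[k' + 1] Q) with hDdef
  have hFc : Continuous F := bev_continuous _
  have hDc : Continuous D := bev_continuous _
  -- a disc on which `D` is positive
  obtain ⟨ρ, hρ, hρD⟩ : ∃ ρ > 0, ∀ z, dist z c < ρ → 0 < D z := by
    have hopen : IsOpen {z | 0 < D z} := isOpen_lt continuous_const hDc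
    obtain ⟨ρ, hρ, hsub⟩ := Metric.isOpen_iff.mp hopen c hpos
    exact ⟨ρ, hρ, fun z hz => hsub hz⟩
  have hdist : ∀ z : ℂ, |z.re - c.re| < ρ / 2 → |z.im - c.im| < ρ / 2 → dist z c < ρ := by
    intro z h1 h2
    rw [Complex.dist_eq]
    have := Complex.norm_le_abs_re_add_abs_im (z - c)
    rw [Complex.sub_re, Complex.sub_im] at this
    linarith
  have hderiv : ∀ x t : ℝ, HasDerivAt (fun s : ℝ => F ⟨x, s⟩) (D ⟨x, t⟩) t := by
    intro x t
    have := bev_hasDerivAt (Polynomial.derivative^[k'] Q) x t
    rw [← Function.iterate_succ_apply' Polynomial.derivative k' Q] at this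
    exact this
  set η : ℝ := ρ / 2 with hη
  have hηpos : 0 < η := by positivity
  have mono0 : ∀ x y y' : ℝ, |x - c.re| < ρ / 2 → |y - c.im| < η → |y' - c.im| < η → y < y' →
      F ⟨x, y⟩ < F ⟨x, y'⟩ := by
    intro x y y' hx hy hy' hlt
    have hmono : StrictMonoOn (fun s : ℝ => F ⟨x, s⟩) (Icc y y') := by
      apply strictMonoOn_of_deriv_pos (convex_Icc y y')
      · exact fun s _ => (hderiv x s).continuousAt.continuousWithinAt
      · intro s hs
        rw [interior_Icc] at hs
        rw [(hderiv x s).deriv]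
        apply hρD
        apply hdist
        · exact hx
        · show |s - c.im| < ρ / 2
          rw [abs_lt] at hy hy' ⊢
          constructor <;> linarith [hs.1, hs.2]
    exact hmono (left_mem_Icc.mpr hlt.le) (right_mem_Icc.mpr hlt.le) hlt
  have hFc0 : F c = 0 := hmin k' le_rfl c hcS
  have hc0 : |c.re - c.re| < ρ / 2 := by simpa using (by positivity : (0 : ℝ) < ρ / 2)
  have hci : |c.im - c.im| < η := by simpa using hηpos
  have hplus : |c.im + η / 2 - c.im| < η := by
    rw [abs_lt]; constructor <;> linarith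
  have hminus : |c.im - η / 2 - c.im| < η := by
    rw [abs_lt]; constructor <;> linarith
  have hup0 : 0 < F ⟨c.re, c.im + η / 2⟩ := by
    have := mono0 c.re c.im (c.im + η / 2) hc0 hci hplus (by linarith)
    rw [Complex.eta, hFc0] at this
    exact this
  have hdown0 : F ⟨c.re, c.im - η / 2⟩ < 0 := by
    have := mono0 c.re (c.im - η / 2) c.im hc0 hminus hci (by linarith)
    rw [Complex.eta, hFc0] at this
    exact this
  obtain ⟨δ₁, hδ₁, hup1⟩ : ∃ δ₁ > 0, ∀ x : ℝ, |x - c.re| < δ₁ → 0 < F ⟨x, c.im + η / 2⟩ := by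
    have hcont : Continuous fun x : ℝ => F ⟨x, c.im + η / 2⟩ :=
      hFc.comp (continuous_complex_mk continuous_id continuous_const)
    have hopen : IsOpen {x : ℝ | 0 < F ⟨x, c.im + η / 2⟩} := isOpen_lt continuous_const hcont
    obtain ⟨δ₁, hδ₁, hsub⟩ := Metric.isOpen_iff.mp hopen c.re hup0
    exact ⟨δ₁, hδ₁, fun x hx => hsub (by rw [mem_ball, Real.dist_eq]; exact hx)⟩
  obtain ⟨δ₂, hδ₂, hdown1⟩ : ∃ δ₂ > 0, ∀ x : ℝ, |x - c.re| < δ₂ → F ⟨x, c.im - η / 2⟩ < 0 := by
    have hcont : Continuous fun x : ℝ => F ⟨x, c.im - η / 2⟩ :=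
      hFc.comp (continuous_complex_mk continuous_id continuous_const)
    have hopen : IsOpen {x : ℝ | F ⟨x, c.im - η / 2⟩ < 0} := isOpen_lt hcont continuous_const
    obtain ⟨δ₂, hδ₂, hsub⟩ := Metric.isOpen_iff.mp hopen c.re hdown0
    exact ⟨δ₂, hδ₂, fun x hx => hsub (by rw [mem_ball, Real.dist_eq]; exact hx)⟩
  set δ : ℝ := min (ρ / 2) (min δ₁ δ₂) with hδdef
  have hδpos : 0 < δ := lt_min (by positivity) (lt_min hδ₁ hδ₂)
  have hδρ : δ ≤ ρ / 2 := min_le_left _ _
  have hδ1 : δ ≤ δ₁ := (min_le_right _ _).trans (min_le_left _ _)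
  have hδ2 : δ ≤ δ₂ := (min_le_right _ _).trans (min_le_right _ _)
  have hmain := tame_of_local_graph hUo hOo hUO hSU hScl (F := F) hcS hδpos hηpos
    (fun x y y' hx hy hy' hlt => mono0 x y y' (lt_of_lt_of_le hx hδρ) hy hy' hlt)
    (fun x hx => hup1 x (lt_of_lt_of_le hx hδ1))
    (fun x hx => hdown1 x (lt_of_lt_of_le hx hδ2))
    (fun z hz _ _ => hmin k' le_rfl z hz)
    (by
      intro harc z hzfr hz1 hz2
      have hQz : bev Q z = 0 := hQ z hzfr
      -- the zero of `F` on the vertical line through `z`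
      have hcontg : ContinuousOn (fun s : ℝ => F ⟨z.re, s⟩) (Icc (c.im - η / 2) (c.im + η / 2)) :=
        fun s _ => (hderiv z.re s).continuousAt.continuousWithinAt
      have hivt := intermediate_value_Icc (by linarith : c.im - η / 2 ≤ c.im + η / 2) hcontg
      have h0mem : (0 : ℝ) ∈ Icc (F ⟨z.re, c.im - η / 2⟩) (F ⟨z.re, c.im + η / 2⟩) :=
        ⟨(hdown1 z.re (lt_of_lt_of_le hz1 hδ2)).le, (hup1 z.re (lt_of_lt_of_le hz1 hδ1)).le⟩
      obtain ⟨y₁, hy₁, hFy₁⟩ := hivt h0mem
      have hy₁η : |y₁ - c.im| < η := by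
        rw [abs_lt]; constructor <;> linarith [hy₁.1, hy₁.2]
      have haS : (⟨z.re, y₁⟩ : ℂ) ∈ frontier O := harc ⟨z.re, y₁⟩ hz1 hy₁η hFy₁
      by_cases hzy : z.im = y₁
      · have : z = ⟨z.re, y₁⟩ := by rw [← hzy]
        rw [this]
        exact hFy₁
      · exfalso
        have hkey := poly_no_other_zero (k' + 1) (Q.map (Polynomial.evalRingHom z.re)) y₁
          (min y₁ z.im) (max y₁ z.im) ⟨min_le_left _ _, le_max_left _ _⟩
          (by
            intro i hi
            have := hmin i (Nat.lt_succ_iff.mp hi) ⟨z.re, y₁⟩ haS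
            rw [bev_iterate_derivative] at this
            exact this)
          (by
            intro y hy
            have hyη : |y - c.im| < η := by
              rw [abs_lt] at hy₁η hz2 ⊢
              constructor
              · have := hy.1
                rcases min_choice y₁ z.im with h | h <;> rw [h] at this <;> linarith
              · have := hy.2
                rcases max_choice y₁ z.im with h | h <;> rw [h] at this <;> linarith
            have hD : 0 < D ⟨z.re, y⟩ := hρD _ (hdist _ (lt_of_lt_of_le hz1 hδρ) hyη)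
            have e : D ⟨z.re, y⟩ =
                (Polynomial.derivative^[k' + 1] (Q.map (Polynomial.evalRingHom z.re))).eval y := by
              simp only [hDdef]
              rw [bev_iterate_derivative]
            rw [e] at hD
            exact hD.ne')
          z.im ⟨min_le_right _ _, le_max_right _ _⟩ hzy
        exact hkey hQz)
  refine ⟨min δ η, lt_min hδpos hηpos, ?_⟩
  intro x p hp
  apply hmain x p
  intro t
  obtain ⟨h1, h2⟩ := hp t
  rw [mem_ball, Complex.dist_eq] at h2
  refine ⟨h1, ?_, ?_⟩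
  · have := Complex.abs_re_le_norm (p t - c)
    rw [Complex.sub_re] at this
    exact lt_of_le_of_lt this (lt_of_lt_of_le h2 (min_le_left _ _))
  · have := Complex.abs_im_le_norm (p t - c)
    rw [Complex.sub_im] at this
    exact lt_of_le_of_lt this (lt_of_lt_of_le h2 (min_le_right _ _))

/-- A bounded nonempty open planar set whose boundary lies in the zero set of a nonzero real
polynomial is tame near some boundary point: small loops near that point contract in the set. -/
theorem exists_tame_of_poly {U : Set ℂ} (hUo : IsOpen U) (hUb : Bornology.IsBounded U)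
    (hUne : U.Nonempty) {P₀ : Polynomial (Polynomial ℝ)} (hP₀ : P₀ ≠ 0)
    (hP : ∀ z ∈ frontier U, bev P₀ z = 0) :
    ∃ b ∈ frontier U, ∃ ε > 0, ∀ (x : ℂ) (p : Path x x),
      (∀ t, p t ∈ U ∩ ball b ε) → ∃ H : p.Homotopy (Path.refl x), ∀ t, H t ∈ U := by
  have hSU : frontier (closure U)ᶜ ⊆ frontier U := frontier_ext_subset hUo
  have hex : ∃ k, ∃ c ∈ frontier (closure U)ᶜ, bev (Polynomial.derivative^[k] P₀) c ≠ 0 := by
    obtain ⟨u, hu⟩ := hUne
    obtain ⟨r, hr, hball⟩ := Metric.isOpen_iff.mp hUo u hu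
    have hfin := finite_degenerate hP₀
    have hinf : (Ioo (u.re - r) (u.re + r)).Infinite := Ioo_infinite (by linarith)
    obtain ⟨x, hxI, hxnd⟩ := hinf.exists_notMem_finite hfin
    have hx : |x - u.re| < r := by
      rw [abs_lt]; constructor <;> linarith [hxI.1, hxI.2]
    obtain ⟨z, hzS, hzx⟩ := exists_ext_frontier_on_line hUb hball hx
    have hq : P₀.map (Polynomial.evalRingHom z.re) ≠ 0 := by rw [hzx]; exact hxnd
    obtain ⟨k, hk⟩ := exists_iterate_derivative_ne _ _ le_rfl hq z.im
    exact ⟨k, z, hzS, by rw [bev_iterate_derivative]; exact hk⟩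
  classical
  obtain ⟨c, hcS, hck⟩ := Nat.find_spec hex
  have hmin : ∀ i < Nat.find hex, ∀ c' ∈ frontier (closure U)ᶜ,
      bev (Polynomial.derivative^[i] P₀) c' = 0 := by
    intro i hi c' hc'
    by_contra h
    exact Nat.find_min hex hi ⟨c', hc', h⟩
  have hk0 : Nat.find hex ≠ 0 := by
    intro h0
    rw [h0] at hck
    exact hck (hP c (hSU hcS))
  obtain ⟨k', hk'⟩ := Nat.exists_eq_succ_of_ne_zero hk0
  rw [hk'] at hck hmin
  refine ⟨c, hSU hcS, ?_⟩
  rcases lt_or_gt_of_ne hck with hneg | hpos
  · apply tame_of_pos hUo (-P₀) k' hcS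
    · intro z hz
      rw [bev_neg, hP z hz, neg_zero]
    · intro i hi c' hc'
      rw [bev_iterate_derivative_neg, hmin i (Nat.lt_succ_of_le hi) c' hc', neg_zero]
    · rw [bev_iterate_derivative_neg]
      linarith
  · exact tame_of_pos hUo P₀ k' hcS hP (fun i hi c' hc' => hmin i (Nat.lt_succ_of_le hi) c' hc') hpos

/-- The boundary of a set defined by sign conditions on finitely many real polynomials lies in
the zero set of one nonzero real polynomial. -/
theorem exists_poly_of_sign_conditions {m : ℕ} (p : Fin m → MvPolynomial (Fin 2) ℝ)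
    (Sg : Set (Fin m → SignType)) {U : Set ℂ}
    (hU : U = {z : ℂ | (fun j => SignType.sign (MvPolynomial.eval ![z.re, z.im] (p j))) ∈ Sg}) :
    ∃ P₀ : Polynomial (Polynomial ℝ), P₀ ≠ 0 ∧ ∀ z ∈ frontier U, bev P₀ z = 0 := by
  classical
  choose P hP using fun j => exists_bivariate (p j)
  set J : Finset (Fin m) := Finset.univ.filter (fun j => P j ≠ 0) with hJ
  refine ⟨∏ j ∈ J, P j, Finset.prod_ne_zero_iff.mpr (fun j hj => (Finset.mem_filter.mp hj).2), ?_⟩
  intro z hz
  by_contra hne
  rw [bev_prod] at hne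
  have hnz : ∀ j ∈ J, bev (P j) z ≠ 0 := fun j hj => (Finset.prod_ne_zero_iff.mp hne) j hj
  have hev : ∀ᶠ w in 𝓝 z, ∀ j, SignType.sign (bev (P j) w) = SignType.sign (bev (P j) z) := by
    rw [Filter.eventually_all]
    intro j
    by_cases hj : P j = 0
    · apply Filter.Eventually.of_forall
      intro w
      rw [hj, bev_zero, bev_zero]
    · have hjJ : j ∈ J := Finset.mem_filter.mpr ⟨Finset.mem_univ _, hj⟩
      have h0 := hnz j hjJ
      have hc := (bev_continuous (P j)).continuousAt (x := z)
      rcases lt_or_gt_of_ne h0 with hlt | hgt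
      · have : ∀ᶠ w in 𝓝 z, bev (P j) w < 0 := hc.eventually (gt_mem_nhds hlt)
        filter_upwards [this] with w hw
        rw [sign_neg hw, sign_neg hlt]
      · have : ∀ᶠ w in 𝓝 z, 0 < bev (P j) w := hc.eventually (lt_mem_nhds hgt)
        filter_upwards [this] with w hw
        rw [sign_pos hw, sign_pos hgt]
  have hmem : ∀ᶠ w in 𝓝 z, (w ∈ U ↔ z ∈ U) := by
    filter_upwards [hev] with w hw
    rw [hU]
    show (fun j => SignType.sign (MvPolynomial.eval ![w.re, w.im] (p j))) ∈ Sg ↔
      (fun j => SignType.sign (MvPolynomial.eval ![z.re, z.im] (p j))) ∈ Sg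
    have : (fun j => SignType.sign (MvPolynomial.eval ![w.re, w.im] (p j))) =
        (fun j => SignType.sign (MvPolynomial.eval ![z.re, z.im] (p j))) := by
      funext j
      rw [hP j w, hP j z, hw j]
    rw [this]
  by_cases hzU : z ∈ U
  · have hnhd : U ∈ 𝓝 z := by
      filter_upwards [hmem] with w hw
      exact hw.mpr hzU
    exact hz.2 (mem_interior_iff_mem_nhds.mpr hnhd)
  · have hnhd : Uᶜ ∈ 𝓝 z := by
      filter_upwards [hmem] with w hw
      exact fun h => hzU (hw.mp h)
    have hncl : z ∉ closure U := by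
      rw [mem_closure_iff_nhds]
      intro h
      obtain ⟨w, hw1, hw2⟩ := h _ hnhd
      exact hw1 hw2
    exact hncl hz.1

/-- A bounded nonempty open planar set defined by sign conditions on finitely many real
polynomials in the real and imaginary parts is tame near some boundary point. -/
theorem semialg_tame {U : Set ℂ} (hUo : IsOpen U) (hUb : Bornology.IsBounded U)
    (hUne : U.Nonempty) {m : ℕ} (p : Fin m → MvPolynomial (Fin 2) ℝ)
    (Sg : Set (Fin m → SignType))
    (hU : U = {z : ℂ | (fun j => SignType.sign (MvPolynomial.eval ![z.re, z.im] (p j))) ∈ Sg}) :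
    ∃ b ∈ frontier U, ∃ ε > 0, ∀ (x : ℂ) (q : Path x x),
      (∀ t, q t ∈ U ∩ ball b ε) → ∃ H : q.Homotopy (Path.refl x), ∀ t, H t ∈ U := by
  obtain ⟨P₀, hP₀, hP⟩ := exists_poly_of_sign_conditions p Sg hU
  exact exists_tame_of_poly hUo hUb hUne hP₀ hP

end Vale.Agent.Lib.P274
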