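import Vale.Agent.Lib.P274.Disc
import Vale.Agent.Lib.P274.SemiTame

/-!
# Semialgebraic planar domains, and products of them, with a cocompact group of biholomorphisms
-/

open Complex Metric Set Filter Topology

namespace Vale.Agent.Lib.P274

/-- A bounded connected open planar set defined by sign conditions on finitely many real
polynomials, carrying a cocompact group of biholomorphisms, is biholomorphic to the unit disc
and is a symmetric domain. -/
theorem planar_semialg_disc {U : Set ℂ} (hUo : IsOpen U) (hUc : IsConnected U)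
    (hUb : Bornology.IsBounded U)
    {m : ℕ} (p : Fin m → MvPolynomial (Fin 2) ℝ) (Sg : Set (Fin m → SignType))
    (hU : U = {z : ℂ | (fun j => SignType.sign (MvPolynomial.eval ![z.re, z.im] (p j))) ∈ Sg})
    {G : Type*} [Group G] [MulAction G U]
    (hol : ∀ g : G, ∃ f : ℂ → ℂ, DifferentiableOn ℂ f U ∧ ∀ z : U, f z = ((g • z : U) : ℂ))
    (hcpt : CompactSpace (MulAction.orbitRel.Quotient G U)) :
    (∃ f g : ℂ → ℂ, DifferentiableOn ℂ f U ∧ DifferentiableOn ℂ g (ball 0 1) ∧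
      MapsTo f U (ball 0 1) ∧ MapsTo g (ball 0 1) U ∧
      (∀ z ∈ U, g (f z) = z) ∧ ∀ w ∈ ball (0 : ℂ) 1, f (g w) = w) ∧
    ∀ z ∈ U, ∃ s : ℂ → ℂ, DifferentiableOn ℂ s U ∧ MapsTo s U U ∧ (∀ w ∈ U, s (s w) = w) ∧
      ∀ w ∈ U, (s w = w ↔ w = z) :=
  planar_disc hUo hUc hUb hol hcpt (semialg_tame hUo hUb hUc.nonempty p Sg hU)

variable {n : ℕ}

/-- A product of bounded connected open planar sets, each defined by sign conditions on finitely
many real polynomials, carrying a cocompact group of biholomorphisms, is biholomorphic to the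
unit polydisc and is a symmetric domain. -/
theorem prodSet_semialg_polydisc {V : Fin n → Set ℂ} (hVo : ∀ i, IsOpen (V i))
    (hVc : ∀ i, IsConnected (V i)) (hVb : ∀ i, Bornology.IsBounded (V i))
    (m : Fin n → ℕ) (p : ∀ i, Fin (m i) → MvPolynomial (Fin 2) ℝ)
    (Sg : ∀ i, Set (Fin (m i) → SignType))
    (hV : ∀ i, V i =
      {z : ℂ | (fun j => SignType.sign (MvPolynomial.eval ![z.re, z.im] (p i j))) ∈ Sg i})
    {G : Type*} [Group G] [MulAction G (prodSet V)]
    (hol : ∀ g : G, ∃ f : EuclideanSpace ℂ (Fin n) → EuclideanSpace ℂ (Fin n),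
      DifferentiableOn ℂ f (prodSet V) ∧
        ∀ z : prodSet V, f z = ((g • z : prodSet V) : EuclideanSpace ℂ (Fin n)))
    (hcpt : CompactSpace (MulAction.orbitRel.Quotient G (prodSet V))) :
    (∃ Φ Ψ : EuclideanSpace ℂ (Fin n) → EuclideanSpace ℂ (Fin n),
      DifferentiableOn ℂ Φ (prodSet V) ∧
      DifferentiableOn ℂ Ψ {w : EuclideanSpace ℂ (Fin n) | ∀ i, ‖w i‖ < 1} ∧
      MapsTo Φ (prodSet V) {w : EuclideanSpace ℂ (Fin n) | ∀ i, ‖w i‖ < 1} ∧
      MapsTo Ψ {w : EuclideanSpace ℂ (Fin n) | ∀ i, ‖w i‖ < 1} (prodSet V) ∧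
      (∀ z ∈ prodSet V, Ψ (Φ z) = z) ∧
      ∀ w ∈ {w : EuclideanSpace ℂ (Fin n) | ∀ i, ‖w i‖ < 1}, Φ (Ψ w) = w) ∧
    ∀ z ∈ prodSet V, ∃ s : EuclideanSpace ℂ (Fin n) → EuclideanSpace ℂ (Fin n),
      DifferentiableOn ℂ s (prodSet V) ∧ MapsTo s (prodSet V) (prodSet V) ∧
      (∀ w ∈ prodSet V, s (s w) = w) ∧ ∀ w ∈ prodSet V, (s w = w ↔ w = z) :=
  prodSet_polydisc hVo hVc hVb hol hcpt
    (fun i => semialg_tame (hVo i) (hVb i) (hVc i).nonempty (p i) (Sg i) (hV i))

end Vale.Agent.Lib.P274
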