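import Mathlib
open Complex Metric Set Filter Topology Polynomial

namespace Vale.Agent.Lib.P274

/-- Evaluation of a real polynomial in two variables (an element of `ℝ[X][Y]`) at the point
`(Re z, Im z)`. -/
noncomputable def bev (P : Polynomial (Polynomial ℝ)) (z : ℂ) : ℝ :=
  (P.map (Polynomial.evalRingHom z.re)).eval z.im

theorem bev_eq_sum (P : Polynomial (Polynomial ℝ)) (z : ℂ) :
    bev P z = ∑ i ∈ Finset.range (P.natDegree + 1), (P.coeff i).eval z.re * z.im ^ i := by
  unfold bev
  rw [Polynomial.eval_eq_sum_range' (n := P.natDegree + 1)]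
  · apply Finset.sum_congr rfl
    intro i _
    rw [Polynomial.coeff_map]
    rfl
  · exact lt_of_le_of_lt (Polynomial.natDegree_map_le) (Nat.lt_succ_self _)

theorem bev_continuous (P : Polynomial (Polynomial ℝ)) : Continuous (bev P) := by
  have : bev P = fun z : ℂ =>
      ∑ i ∈ Finset.range (P.natDegree + 1), (P.coeff i).eval z.re * z.im ^ i := by
    funext z; exact bev_eq_sum P z
  rw [this]
  apply continuous_finsetSum
  intro i _
  exact ((P.coeff i).continuous.comp Complex.continuous_re).mul (Complex.continuous_im.pow i)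

theorem bev_mul (P Q : Polynomial (Polynomial ℝ)) (z : ℂ) : bev (P * Q) z = bev P z * bev Q z := by
  unfold bev
  rw [Polynomial.map_mul, Polynomial.eval_mul]

theorem bev_neg (P : Polynomial (Polynomial ℝ)) (z : ℂ) : bev (-P) z = -bev P z := by
  unfold bev
  rw [Polynomial.map_neg, Polynomial.eval_neg]

theorem bev_zero (z : ℂ) : bev 0 z = 0 := by
  unfold bev
  simp

theorem bev_prod {ι : Type*} (s : Finset ι) (P : ι → Polynomial (Polynomial ℝ)) (z : ℂ) :
    bev (∏ j ∈ s, P j) z = ∏ j ∈ s, bev (P j) z := by
  unfold bev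
  rw [Polynomial.map_prod, Polynomial.eval_prod]

theorem bev_iterate_derivative (P : Polynomial (Polynomial ℝ)) (k : ℕ) (z : ℂ) :
    bev (Polynomial.derivative^[k] P) z =
      (Polynomial.derivative^[k] (P.map (Polynomial.evalRingHom z.re))).eval z.im := by
  unfold bev
  rw [Polynomial.iterate_derivative_map]

theorem bev_mk (P : Polynomial (Polynomial ℝ)) (x y : ℝ) :
    bev P ⟨x, y⟩ = (P.map (Polynomial.evalRingHom x)).eval y := rfl

/-- The vertical derivative. -/
theorem bev_hasDerivAt (P : Polynomial (Polynomial ℝ)) (x y : ℝ) :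
    HasDerivAt (fun t : ℝ => bev P ⟨x, t⟩) (bev (Polynomial.derivative P) ⟨x, y⟩) y := by
  have h := (P.map (Polynomial.evalRingHom x)).hasDerivAt y
  rw [bev_mk, ← Polynomial.derivative_map]
  exact h

/-- A polynomial with a zero of order at least `k` at `a` whose `k`-th derivative does not
vanish on an interval has no other zero in that interval. -/
theorem poly_no_other_zero (k : ℕ) : ∀ (q : Polynomial ℝ) (a lo hi : ℝ), a ∈ Icc lo hi →
    (∀ i < k, (Polynomial.derivative^[i] q).eval a = 0) →
    (∀ y ∈ Icc lo hi, (Polynomial.derivative^[k] q).eval y ≠ 0) →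
    ∀ y ∈ Icc lo hi, y ≠ a → q.eval y ≠ 0 := by
  induction k with
  | zero =>
    intro q a lo hi _ _ hpos y hy _
    exact hpos y hy
  | succ k ih =>
    intro q a lo hi ha h0 hpos y hy hya hqy
    have hd : ∀ t ∈ Icc lo hi, t ≠ a → (Polynomial.derivative q).eval t ≠ 0 := by
      apply ih (Polynomial.derivative q) a lo hi ha
      · intro i hi'
        have := h0 (i + 1) (Nat.succ_lt_succ hi')
        rwa [Function.iterate_succ_apply] at this
      · intro t ht
        have := hpos t ht
        rwa [Function.iterate_succ_apply] at this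
    have hqa : q.eval a = 0 := by
      have := h0 0 (Nat.succ_pos k)
      simpa using this
    have hcont : Continuous fun t : ℝ => q.eval t := q.continuous
    rcases lt_or_gt_of_ne hya with hlt | hgt
    · -- y < a
      obtain ⟨c, hc, hc0⟩ := exists_deriv_eq_zero hlt hcont.continuousOn (by rw [hqy, hqa])
      rw [Polynomial.deriv] at hc0
      exact hd c ⟨hy.1.trans hc.1.le, hc.2.le.trans ha.2⟩ hc.2.ne hc0
    · obtain ⟨c, hc, hc0⟩ := exists_deriv_eq_zero hgt hcont.continuousOn (by rw [hqy, hqa])
      rw [Polynomial.deriv] at hc0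
      exact hd c ⟨ha.1.trans hc.1.le, hc.2.le.trans hy.2⟩ hc.1.ne' hc0

/-- A nonzero real polynomial has a nonvanishing iterated derivative at every point. -/
theorem exists_iterate_derivative_ne (n : ℕ) : ∀ (q : Polynomial ℝ), q.natDegree ≤ n → q ≠ 0 →
    ∀ a : ℝ, ∃ k, (Polynomial.derivative^[k] q).eval a ≠ 0 := by
  induction n with
  | zero =>
    intro q hq hq0 a
    refine ⟨0, ?_⟩
    have h1 : q = Polynomial.C (q.coeff 0) := Polynomial.eq_C_of_natDegree_le_zero hq
    intro h
    simp only [Function.iterate_zero, id] at h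
    rw [h1, Polynomial.eval_C] at h
    rw [h, Polynomial.C_0] at h1
    exact hq0 h1
  | succ n ih =>
    intro q hq hq0 a
    by_cases hd : Polynomial.derivative q = 0
    · refine ⟨0, ?_⟩
      have h1 : q = Polynomial.C (q.coeff 0) :=
        Polynomial.eq_C_of_natDegree_le_zero (Polynomial.derivative_eq_zero.mp hd).le
      intro h
      simp only [Function.iterate_zero, id] at h
      rw [h1, Polynomial.eval_C] at h
      rw [h, Polynomial.C_0] at h1
      exact hq0 h1
    · have hdeg : (Polynomial.derivative q).natDegree ≤ n := by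
        have := Polynomial.natDegree_derivative_le q
        omega
      obtain ⟨k, hk⟩ := ih (Polynomial.derivative q) hdeg hd a
      exact ⟨k + 1, by rwa [Function.iterate_succ_apply]⟩

/-- For a nonzero polynomial in two variables, only finitely many vertical lines carry the zero
polynomial. -/
theorem finite_degenerate {P : Polynomial (Polynomial ℝ)} (hP : P ≠ 0) :
    {x : ℝ | P.map (Polynomial.evalRingHom x) = 0}.Finite := by
  obtain ⟨i, hi⟩ : ∃ i, P.coeff i ≠ 0 := by
    by_contra h
    apply hP
    apply Polynomial.ext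
    intro i
    have := not_exists.mp h i
    rw [not_not] at this
    rw [this, Polynomial.coeff_zero]
  apply Set.Finite.subset (Polynomial.finite_setOfPred_isRoot hi)
  intro x hx
  have : (P.map (Polynomial.evalRingHom x)).coeff i = 0 := by
    rw [show P.map (Polynomial.evalRingHom x) = 0 from hx]; simp
  rw [Polynomial.coeff_map] at this
  exact this

/-- Every real polynomial in two variables, in the multivariate sense, is given by an element
of `ℝ[X][Y]`. -/
theorem exists_bivariate (p : MvPolynomial (Fin 2) ℝ) :
    ∃ P : Polynomial (Polynomial ℝ), ∀ z : ℂ, MvPolynomial.eval ![z.re, z.im] p = bev P z := by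
  induction p using MvPolynomial.induction_on with
  | C a =>
    refine ⟨Polynomial.C (Polynomial.C a), fun z => ?_⟩
    simp [bev]
  | add p q hp hq =>
    obtain ⟨P, hP⟩ := hp
    obtain ⟨Q, hQ⟩ := hq
    refine ⟨P + Q, fun z => ?_⟩
    rw [map_add, hP, hQ]
    simp [bev]
  | mul_X p i hp =>
    obtain ⟨P, hP⟩ := hp
    fin_cases i
    · refine ⟨P * Polynomial.C Polynomial.X, fun z => ?_⟩
      rw [map_mul, hP, bev_mul]
      simp [bev]
    · refine ⟨P * Polynomial.X, fun z => ?_⟩
      rw [map_mul, hP, bev_mul]
      simp [bev]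

end Vale.Agent.Lib.P274
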