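import Vale.Agent.Lib.P274.Riemann

/-!
# Involutions of the unit disc and of planar domains biholomorphic to it
-/

open Complex Metric Set Filter Topology

namespace Vale.Agent.Lib.P274

theorem mob_neg_mob {a w : ℂ} (ha : ‖a‖ < 1) (hw : ‖w‖ < 1) : mob (-a) (mob a w) = w := by
  have hd := mob_denom_ne ha hw
  have hna : ‖-a‖ < 1 := by rwa [norm_neg]
  have hd2 := mob_denom_ne hna (mob_norm_lt ha hw)
  have hone : (1 - (starRingEnd ℂ) a * a) ≠ 0 := by
    rw [one_sub_conj_mul_self]
    have : (0:ℝ) < 1 - ‖a‖ ^ 2 := by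
      have := norm_nonneg a
      nlinarith
    exact_mod_cast this.ne'
  have key : mob (-a) (mob a w) = (mob a w + a) / (1 + (starRingEnd ℂ) a * mob a w) := by
    unfold mob
    simp only [map_neg, sub_neg_eq_add, neg_mul]
  have hd3 : 1 + (starRingEnd ℂ) a * mob a w ≠ 0 := by
    have h := hd2
    simp only [map_neg, neg_mul, sub_neg_eq_add] at h
    exact h
  rw [key, div_eq_iff hd3]
  have hu : mob a w * (1 - (starRingEnd ℂ) a * w) = w - a := by
    unfold mob
    exact div_mul_cancel₀ _ hd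
  apply mul_right_cancel₀ hd
  linear_combination (1 - w * (starRingEnd ℂ) a) * hu

theorem mob_mob_neg {a u : ℂ} (ha : ‖a‖ < 1) (hu : ‖u‖ < 1) : mob a (mob (-a) u) = u := by
  have hna : ‖-a‖ < 1 := by rwa [norm_neg]
  have := mob_neg_mob hna hu
  rwa [neg_neg] at this

/-- The holomorphic involution of the unit disc with unique fixed point `a`. -/
noncomputable def discInv (a w : ℂ) : ℂ := mob (-a) (-(mob a w))

theorem discInv_norm_lt {a w : ℂ} (ha : ‖a‖ < 1) (hw : ‖w‖ < 1) : ‖discInv a w‖ < 1 := by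
  have hna : ‖-a‖ < 1 := by rwa [norm_neg]
  apply mob_norm_lt hna
  rw [norm_neg]
  exact mob_norm_lt ha hw

theorem mob_discInv {a w : ℂ} (ha : ‖a‖ < 1) (hw : ‖w‖ < 1) :
    mob a (discInv a w) = -(mob a w) := by
  unfold discInv
  apply mob_mob_neg ha
  rw [norm_neg]
  exact mob_norm_lt ha hw

theorem discInv_discInv {a w : ℂ} (ha : ‖a‖ < 1) (hw : ‖w‖ < 1) :
    discInv a (discInv a w) = w := by
  have h1 : discInv a (discInv a w) = mob (-a) (-(mob a (discInv a w))) := rfl
  rw [h1, mob_discInv ha hw, neg_neg]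
  exact mob_neg_mob ha hw

theorem discInv_eq_self_iff {a w : ℂ} (ha : ‖a‖ < 1) (hw : ‖w‖ < 1) :
    discInv a w = w ↔ w = a := by
  constructor
  · intro h
    have h1 := mob_discInv ha hw
    rw [h] at h1
    have h2 : mob a w = 0 := by
      have : (2 : ℂ) * mob a w = 0 := by linear_combination h1
      rcases mul_eq_zero.mp this with h3 | h3
      · exact absurd h3 two_ne_zero
      · exact h3
    unfold mob at h2
    rcases div_eq_zero_iff.mp h2 with h3 | h3
    · exact sub_eq_zero.mp h3
    · exact absurd h3 (mob_denom_ne ha hw)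
  · rintro rfl
    unfold discInv
    rw [mob_self, neg_zero, mob_zero, neg_neg]

theorem discInv_differentiableOn {a : ℂ} (ha : ‖a‖ < 1) :
    DifferentiableOn ℂ (discInv a) (ball 0 1) := by
  have hna : ‖-a‖ < 1 := by rwa [norm_neg]
  have h1 : DifferentiableOn ℂ (fun w => -(mob a w)) (ball 0 1) := (mob_differentiableOn ha).neg
  have h2 : MapsTo (fun w => -(mob a w)) (ball (0:ℂ) 1) (ball 0 1) := by
    intro w hw
    rw [mem_ball, dist_zero_right] at hw ⊢
    rw [norm_neg]
    exact mob_norm_lt ha hw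
  exact (mob_differentiableOn hna).comp h1 h2

/-- A planar set biholomorphic to the unit disc is symmetric: every point is the unique fixed
point of a holomorphic involution. -/
theorem symmetric_of_biholo_disc {U : Set ℂ} {f g : ℂ → ℂ} (hf : DifferentiableOn ℂ f U)
    (hg : DifferentiableOn ℂ g (ball 0 1)) (hfm : MapsTo f U (ball 0 1))
    (hgm : MapsTo g (ball 0 1) U) (hgf : ∀ z ∈ U, g (f z) = z)
    (hfg : ∀ w ∈ ball (0 : ℂ) 1, f (g w) = w) {z : ℂ} (hz : z ∈ U) :
    ∃ s : ℂ → ℂ, DifferentiableOn ℂ s U ∧ MapsTo s U U ∧ (∀ w ∈ U, s (s w) = w) ∧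
      ∀ w ∈ U, (s w = w ↔ w = z) := by
  have hn : ∀ w ∈ U, ‖f w‖ < 1 := by
    intro w hw
    have := hfm hw
    rwa [mem_ball, dist_zero_right] at this
  have ha := hn z hz
  have hmem : ∀ w ∈ U, discInv (f z) (f w) ∈ ball (0:ℂ) 1 := by
    intro w hw
    rw [mem_ball, dist_zero_right]
    exact discInv_norm_lt ha (hn w hw)
  refine ⟨fun w => g (discInv (f z) (f w)), ?_, ?_, ?_, ?_⟩
  · have h1 : DifferentiableOn ℂ (fun w => discInv (f z) (f w)) U :=
      (discInv_differentiableOn ha).comp hf hfm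
    exact hg.comp h1 hmem
  · intro w hw
    exact hgm (hmem w hw)
  · intro w hw
    show g (discInv (f z) (f (g (discInv (f z) (f w))))) = w
    rw [hfg _ (hmem w hw), discInv_discInv ha (hn w hw)]
    exact hgf w hw
  · intro w hw
    show g (discInv (f z) (f w)) = w ↔ w = z
    constructor
    · intro h
      have h1 : f (g (discInv (f z) (f w))) = f w := by rw [h]
      rw [hfg _ (hmem w hw), discInv_eq_self_iff ha (hn w hw)] at h1
      have h2 : g (f w) = g (f z) := by rw [h1]
      rw [hgf w hw, hgf z hz] at h2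
      exact h2
    · rintro rfl
      rw [(discInv_eq_self_iff ha ha).mpr rfl]
      exact hgf w hw

end Vale.Agent.Lib.P274
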