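import Vale.Agent.Lib.P274.Main

/-!
# Transporting loops by group elements, and pushing with several peak functions
-/

open Complex Metric Set

namespace Vale.Agent.Lib.P274

section Family

variable {E : Type*} [NormedAddCommGroup E] [NormedSpace ℂ E]

/-- Version of `push_general` for finitely many zero-free bounded holomorphic functions that can
be made small simultaneously. -/
theorem push_general_family {ι : Type*} [Finite ι] {U : Set E} (hUo : IsOpen U)
    (hUc : IsPreconnected U) (hUne : U.Nonempty)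
    (ψ : ι → E → ℂ) (hψ : ∀ i, DifferentiableOn ℂ (ψ i) U) (hψ0 : ∀ i, ∀ z ∈ U, ψ i z ≠ 0)
    (hψ1 : ∀ i, ∀ z ∈ U, ‖ψ i z‖ < 1) (hinf : ∀ δ > 0, ∃ z ∈ U, ∀ i, ‖ψ i z‖ < δ)
    (𝒜 : Set (E → E)) (h𝒜 : ∀ f ∈ 𝒜, DifferentiableOn ℂ f U ∧ MapsTo f U U)
    {K : Set E} (hK : IsCompact K) (hKU : K ⊆ U)
    (hcov : ∀ z ∈ U, ∃ f ∈ 𝒜, ∃ k ∈ K, f k = z)
    {Q : Set E} (hQ : IsCompact Q) (hQU : Q ⊆ U) {η : ℝ} (hη : 0 < η) :
    ∃ f ∈ 𝒜, ∀ q ∈ Q, ∀ i, ‖ψ i (f q)‖ < η := by
  obtain ⟨w0, hw0⟩ := hUne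
  have hadm : ∀ f ∈ 𝒜, ∀ i, AdmE U (fun z => ψ i (f z)) := by
    intro f hf i
    obtain ⟨hfd, hfm⟩ := h𝒜 f hf
    exact ⟨(hψ i).comp hfd hfm, fun z hz => ⟨hψ0 i _ (hfm hz), hψ1 i _ (hfm hz)⟩⟩
  obtain ⟨C, hC, hcomp⟩ := compE_compact hUo hUc hw0 (hQ.union hK) (union_subset hQU hKU)
  set Λ : ℝ := -Real.log η with hΛ
  set D : ℝ := C ^ 2 + 1 with hD
  have hDpos : 0 < D := by positivity
  set δ : ℝ := Real.exp (-(D * |Λ|)) with hδ
  have hδpos : 0 < δ := by positivity
  obtain ⟨z, hzU, hzδ⟩ := hinf δ hδpos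
  obtain ⟨f, hf, k, hk, hfk⟩ := hcov z hzU
  refine ⟨f, hf, ?_⟩
  intro q hq i
  have hA := hadm f hf i
  obtain ⟨a1, a2⟩ := hcomp q (Or.inl hq) _ hA
  obtain ⟨b1, b2⟩ := hcomp k (Or.inr hk) _ hA
  have pq := hA.pos (hQU hq)
  have pk := hA.pos (hKU hk)
  have p0 := hA.pos hw0
  have hkq : -Real.log ‖ψ i (f k)‖ ≤ D * (-Real.log ‖ψ i (f q)‖) := by
    calc -Real.log ‖ψ i (f k)‖ ≤ C * (-Real.log ‖ψ i (f w0)‖) := b2
      _ ≤ C * (C * (-Real.log ‖ψ i (f q)‖)) := by gcongr
      _ = C ^ 2 * (-Real.log ‖ψ i (f q)‖) := by ring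
      _ ≤ D * (-Real.log ‖ψ i (f q)‖) := by
        rw [hD]; nlinarith
  have hzpos : 0 < ‖ψ i z‖ := norm_pos_iff.mpr (hψ0 i z hzU)
  have hLk : D * |Λ| < -Real.log ‖ψ i (f k)‖ := by
    rw [hfk]
    have h2 := Real.log_lt_log hzpos (hzδ i)
    rw [hδ, Real.log_exp] at h2
    linarith
  have hLq : Λ < -Real.log ‖ψ i (f q)‖ := by
    have : |Λ| < -Real.log ‖ψ i (f q)‖ := by
      by_contra hcon
      have hcon' := not_lt.mp hcon
      nlinarith
    exact lt_of_le_of_lt (le_abs_self _) this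
  by_contra hcon
  have hcon' := not_lt.mp hcon
  have h4 := Real.log_le_log hη hcon'
  rw [hΛ] at hLq
  linarith

end Family

section Transport

variable {E : Type*} [NormedAddCommGroup E] [NormedSpace ℂ E]

/-- Transport principle: if every compact subset of `U` can be moved by a group element into a
set `P` such that loops in `U ∩ P` contract in `U`, then `U` is simply connected. -/
theorem simply_connected_of_transport {U : Set E} (hUo : IsOpen U) (hUc : IsConnected U)
    {G : Type*} [Group G] [MulAction G U]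
    (hol : ∀ g : G, ∃ f : E → E, DifferentiableOn ℂ f U ∧ ∀ z : U, f z = ((g • z : U) : E))
    (P : Set E)
    (hpush : ∀ Q : Set E, IsCompact Q → Q ⊆ U → ∃ g : G, ∃ f : E → E,
      DifferentiableOn ℂ f U ∧ (∀ z : U, f z = ((g • z : U) : E)) ∧ ∀ q ∈ Q, f q ∈ P)
    (htame : ∀ (x : E) (γ : Path x x),
      (∀ t, γ t ∈ U ∩ P) → ∃ F : γ.Homotopy (Path.refl x), ∀ t, F t ∈ U) :
    IsSimplyConnected U := by
  rw [isSimplyConnected_iff_exists_homotopy_refl_forall_mem]
  refine ⟨hUo.isConnected_iff_isPathConnected.mp hUc, ?_⟩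
  intro x γ hγ
  have hQ : IsCompact (range γ) := isCompact_range γ.continuous
  have hQU : range γ ⊆ U := by
    rintro _ ⟨t, rfl⟩
    exact hγ t
  obtain ⟨g, f, hf, hg, hfQ⟩ := hpush (range γ) hQ hQU
  have hfm : MapsTo f U U := by
    intro z hz
    have := hg ⟨z, hz⟩
    simp only at this
    rw [this]
    exact (g • (⟨z, hz⟩ : U)).2
  let q : Path (f x) (f x) :=
    { toFun := fun t => f (γ t)
      continuous_toFun := hf.continuousOn.comp_continuous γ.continuous hγ
      source' := by simp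
      target' := by simp }
  have hq : ∀ t, q t ∈ U ∩ P := by
    intro t
    exact ⟨hfm (hγ t), hfQ _ ⟨t, rfl⟩⟩
  obtain ⟨F, hF⟩ := htame (f x) q hq
  obtain ⟨f', hf', hfg'⟩ := hol g⁻¹
  have hinv : ∀ z ∈ U, f' (f z) = z := by
    intro z hz
    have h1 := hg ⟨z, hz⟩
    simp only at h1
    have h2 := hfg' (g • (⟨z, hz⟩ : U))
    rw [h1, h2]
    simp
  have hxU : x ∈ U := by
    have := hγ 0
    simpa using this
  let H : γ.Homotopy (Path.refl x) :=
    { toFun := fun st => f' (F st)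
      continuous_toFun := hf'.continuousOn.comp_continuous F.continuous hF
      map_zero_left := by
        intro t
        show f' (F (0, t)) = γ t
        rw [F.apply_zero]
        exact hinv _ (hγ t)
      map_one_left := by
        intro t
        show f' (F (1, t)) = x
        rw [F.apply_one]
        exact hinv _ hxU
      prop' := by
        intro s t ht
        show f' (F (s, t)) = γ t
        rcases ht with rfl | rfl
        · rw [F.source]
          simp [hinv _ hxU]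
        · rw [F.target]
          simp [hinv _ hxU] }
  refine ⟨H, ?_⟩
  intro st
  show f' (F st) ∈ U
  have := hfg' ⟨F st, hF st⟩
  simp only at this
  rw [this]
  exact (g⁻¹ • (⟨F st, hF st⟩ : U)).2

end Transport

end Vale.Agent.Lib.P274
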